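import Mathlib

namespace Vale.Agent.P084

universe u v

/-- the norm coincides with the functional `φ` on the open ball of radius `ρ` around `x`: the unit
sphere is flat near `x / ‖x‖` -/
def Flat {Z : Type v} [NormedAddCommGroup Z] [NormedSpace ℝ Z] (φ : Z →L[ℝ] ℝ) (x : Z) (ρ : ℝ) :
    Prop :=
  ∀ v : Z, ‖v‖ < ρ → ‖x + v‖ = φ (x + v)

/-- A polyhedral structure on a normed space `Z` (property (V) of Fonf and Vesely with respect to
the norming family `φ`, all of whose faces have nonempty interior in the sphere):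
* every `φ i` has norm at most one and the `φ i` are norming;
* at every unit vector `x` the functionals that do not take the value `1` at `x` are bounded away
  from `1` at `x`;
* every face `{x : ‖x‖ = 1, φ i x = 1}` has nonempty interior relative to the unit sphere. -/
structure PolyFamily (ι : Type u) (Z : Type v) [NormedAddCommGroup Z] [NormedSpace ℝ Z] where
  φ : ι → Z →L[ℝ] ℝ
  le : ∀ i x, φ i x ≤ ‖x‖
  norming : ∀ x : Z, ∀ ε : ℝ, 0 < ε → ∃ i, ‖x‖ - ε < φ i x
  gap : ∀ x : Z, ‖x‖ = 1 → ∃ δ : ℝ, 0 < δ ∧ ∀ i, φ i x = 1 ∨ φ i x ≤ 1 - δ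
  center : ∀ i, ∃ (c : Z) (ρ : ℝ), 0 < ρ ∧ ‖c‖ = 1 ∧ Flat (φ i) c ρ

end Vale.Agent.P084
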