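import Vale.Agent.P084.L1a
import Vale.Agent.P084.Poly.Defs

namespace Vale.Agent.P084

open Metric Set

set_option linter.unusedSectionVars false

universe v w

variable {Z : Type v} {W : Type w}
  [NormedAddCommGroup Z] [NormedSpace ℝ Z] [NormedAddCommGroup W] [NormedSpace ℝ W]

section flat

variable {φ : Z →L[ℝ] ℝ} {x c a b : Z} {ρ ρ' : ℝ}

lemma Flat.self (h : Flat φ x ρ) (hρ : 0 < ρ) : ‖x‖ = φ x := by
  have := h 0 (by rw [norm_zero]; exact hρ)
  rwa [add_zero] at this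

lemma Flat.mono (h : Flat φ x ρ) (h' : ρ' ≤ ρ) : Flat φ x ρ' :=
  fun v hv => h v (lt_of_lt_of_le hv h')

lemma Flat.shift (h : Flat φ x ρ) (x' : Z) : Flat φ x' (ρ - ‖x' - x‖) := by
  intro v hv
  have e : x' + v = x + ((x' - x) + v) := by abel
  rw [e]
  apply h
  have := norm_add_le (x' - x) v
  linarith

/-- a point of the sphere close to a flat point lies in the face -/
lemma Flat.near (h : Flat φ x ρ) {x' : Z} (hx' : ‖x' - x‖ < ρ) : ‖x'‖ = φ x' := by
  have := h (x' - x) hx'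
  rwa [add_sub_cancel] at this

lemma Flat.conv (hφ : ∀ x, φ x ≤ ‖x‖) (h : Flat φ c ρ) {r : Z} (hr : ‖r‖ = φ r) {s : ℝ}
    (hs0 : 0 < s) (hs1 : s ≤ 1) : Flat φ ((1 - s) • r + s • c) (s * ρ) := by
  intro v hv
  apply le_antisymm _ (hφ _)
  have hv' : ‖s⁻¹ • v‖ < ρ := by
    rw [norm_smul, norm_inv, Real.norm_of_nonneg hs0.le, inv_mul_lt_iff₀ hs0]
    exact hv
  have e : (1 - s) • r + s • c + v = (1 - s) • r + s • (c + s⁻¹ • v) := by
    rw [smul_add, smul_smul, mul_inv_cancel₀ hs0.ne', one_smul]; abel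
  have h1 := norm_add_le ((1 - s) • r) (s • (c + s⁻¹ • v))
  rw [norm_smul, norm_smul, Real.norm_of_nonneg (by linarith), Real.norm_of_nonneg hs0.le,
    h _ hv', hr] at h1
  rw [e]
  refine le_trans h1 (le_of_eq ?_)
  simp only [map_add, map_smul, smul_eq_mul]

lemma Flat.conv2 (hφ : ∀ x, φ x ≤ ‖x‖) (h1 : Flat φ a ρ) (h2 : Flat φ b ρ) {t : ℝ}
    (ht0 : 0 ≤ t) (ht1 : t ≤ 1) : Flat φ ((1 - t) • a + t • b) ρ := by
  intro v hv
  apply le_antisymm _ (hφ _)
  have e : (1 - t) • a + t • b + v = (1 - t) • (a + v) + t • (b + v) := by module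
  have h3 := norm_add_le ((1 - t) • (a + v)) (t • (b + v))
  rw [norm_smul, norm_smul, Real.norm_of_nonneg (by linarith), Real.norm_of_nonneg ht0,
    h1 _ hv, h2 _ hv] at h3
  rw [e]
  refine le_trans h3 (le_of_eq ?_)
  simp only [map_add, map_smul, smul_eq_mul]

/-- a unit vector lying in a common face with a flat point lies in the face of `φ` -/
lemma Flat.eq_one (h : Flat φ x ρ) (hρ : 0 < ρ) (hx : ‖x‖ = 1) {z : Z} (hz : ‖z‖ = 1)
    (hxz : ‖x + z‖ = 2) : φ z = 1 := by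
  have hφx : φ x = 1 := by rw [← h.self hρ, hx]
  set t : ℝ := min (1 / 2) (ρ / 4) with ht
  have ht0 : 0 < t := lt_min (by norm_num) (by positivity)
  have ht1 : t ≤ 1 / 2 := min_le_left _ _
  have ht2 : t ≤ ρ / 4 := min_le_right _ _
  have hn : ‖z - x‖ ≤ 2 := by
    have := norm_sub_le z x
    linarith
  have hv : ‖t • (z - x)‖ < ρ := by
    rw [norm_smul, Real.norm_of_nonneg ht0.le]
    nlinarith
  have h1 := h _ hv
  have e : x + t • (z - x) = (1 - t) • x + t • z := by module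
  rw [e, norm_comb_of_flat hx hz hxz (by linarith) ht0.le] at h1
  simp only [map_add, map_smul, smul_eq_mul, hφx] at h1
  have : t * (φ z - 1) = 0 := by linarith
  rcases mul_eq_zero.mp this with h0 | h0
  · linarith
  · linarith

end flat

section iso

variable {f : Z → W} (hf : SphIso f) {φ : Z →L[ℝ] ℝ} (hφ : ∀ x, φ x ≤ ‖x‖)
include hf hφ

/-- the image of a flat point lies in a common face with the image of every point of the face -/
lemma face_flat {x x' : Z} {ρ : ℝ} (h : Flat φ x ρ) (hρ : 0 < ρ) (hx : ‖x‖ = 1) (hx' : ‖x'‖ = 1)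
    (hφx' : φ x' = 1) : ‖f x + f x'‖ = 2 := by
  obtain ⟨z, hz, hfz⟩ := hf.surj (- f x) (by rw [norm_neg]; exact hf.norm _ hx)
  have h2 := hf.anti_two hx hz hfz
  have h3 : φ (-z) = 1 := by
    apply h.eq_one hρ hx (by rw [norm_neg]; exact hz)
    rw [← sub_eq_add_neg, norm_sub_rev]; exact h2
  have e : f x + f x' = f x' - f z := by rw [hfz]; abel
  rw [e, hf.iso _ _ hx' hz]
  apply le_antisymm
  · have := norm_sub_le x' z
    linarith
  · have := hφ (x' - z)
    rw [sub_eq_add_neg, map_add, hφx', h3] at this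
    rw [sub_eq_add_neg]
    linarith

/-- `f` preserves midpoints of nearby points near a flat point -/
lemma patch_mid {a b : Z} {ρ : ℝ} (h : Flat φ a ρ) (hρ : 0 < ρ) (ha : ‖a‖ = 1) (hb : ‖b‖ = 1)
    (hab : ‖a - b‖ ≤ ρ / 3) (hab' : ‖a - b‖ ≤ 1 / 2) :
    f ((1 / 2 : ℝ) • (a + b)) = (1 / 2 : ℝ) • (f a + f b) := by
  set r : ℝ := min (ρ / 3) (1 / 2) with hr
  have hr1 : r ≤ ρ / 3 := min_le_left _ _
  have hr2 : r ≤ 1 / 2 := min_le_right _ _
  have hφa : φ a = 1 := by rw [← h.self hρ, ha]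
  have hφ1 : ∀ x, ‖x‖ = 1 → ‖x - a‖ ≤ 2 * r → φ x = 1 := by
    intro x hx hxa
    rw [← h.near (by linarith), hx]
  have hφb : φ b = 1 := hφ1 b hb (by rw [norm_sub_rev]; linarith [le_min hab hab', norm_nonneg (a - b)])
  apply local_mid_flat hf (r := r) (by linarith) ha hb (le_min hab hab')
  · intro x x' hx hx' hxa hxa'
    exact face_flat hf hφ (h.shift x) (by linarith) hx hx' (hφ1 x' hx' hxa')
  · intro x hx hxa hxb
    have e : a + b - x = a + (b - x) := by abel
    rw [e, h (b - x) (by rw [norm_sub_rev]; linarith), ← e]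
    simp only [map_add, map_sub]
    rw [hφa, hφb, hφ1 x hx (by linarith [norm_nonneg (x - a)])]
    norm_num
  · have e : (1 / 2 : ℝ) • (a + b) = a + (1 / 2 : ℝ) • (b - a) := by module
    have hn : ‖(1 / 2 : ℝ) • (b - a)‖ < ρ := by
      rw [norm_smul, Real.norm_of_nonneg (by norm_num), norm_sub_rev]
      linarith [norm_nonneg (a - b)]
    rw [e, h _ hn]
    simp only [map_add, map_smul, map_sub, smul_eq_mul]
    rw [hφa, hφb]; norm_num

/-- `f` preserves midpoints on the convex set of uniformly flat points of a face -/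
lemma flat_mid {a b : Z} {ρ : ℝ} (hρ : 0 < ρ) (ha : ‖a‖ = 1) (hb : ‖b‖ = 1)
    (hfa : Flat φ a ρ) (hfb : Flat φ b ρ) :
    f ((1 / 2 : ℝ) • (a + b)) = (1 / 2 : ℝ) • (f a + f b) := by
  have hC : Convex ℝ {x : Z | ‖x‖ = 1 ∧ Flat φ x ρ} := by
    intro x hx y hy s t hs ht hst
    have hs' : s = 1 - t := by linarith
    subst hs'
    have hfl := Flat.conv2 hφ hx.2 hy.2 ht (by linarith)
    refine ⟨?_, hfl⟩
    rw [hfl.self hρ]
    simp only [map_add, map_smul, smul_eq_mul]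
    rw [← hx.2.self hρ, ← hy.2.self hρ, hx.1, hy.1]; ring
  exact doubling _ hC f (ε := min (ρ / 3) (1 / 2)) (lt_min (by positivity) (by norm_num))
    (fun x hx y hy hxy => patch_mid hf hφ hx.2 hρ hx.1 hy.1 (le_trans hxy (min_le_left _ _))
      (le_trans hxy (min_le_right _ _))) a ⟨ha, hfa⟩ b ⟨hb, hfb⟩

end iso

end Vale.Agent.P084
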