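import Vale.Agent.P084.Poly.CombDefs2

/-! # P084 Poly/Comb1 : coordinate functionals of a combinatorial space (p = 1)
tasks C1, C2a, C2b, C3 of table p084_tasks -/

namespace Vale.Agent.P084

open Set

universe u v

variable {ι : Type u} {X : Type v} [NormedAddCommGroup X] [NormedSpace ℝ X]

/-- the norm formula for `p = 1`, lower bound -/
theorem comb_sum_le_span (𝓕 : Set (Finset ι)) (e : ι → X) (h : IsCombSystem 𝓕 1 e)
    (a : ι →₀ ℝ) (A : Finset ι) (hA : A ∈ 𝓕) :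
    ∑ i ∈ A, |a i| ≤ ‖a.sum fun j t => t • e j‖ := by
  apply (h.2 a).1
  exact ⟨A, hA, by simp⟩

/-- the norm formula for `p = 1`, approximation -/
theorem comb_norming_span (𝓕 : Set (Finset ι)) (e : ι → X) (h : IsCombSystem 𝓕 1 e)
    (a : ι →₀ ℝ) (ε : ℝ) (hε : 0 < ε) :
    ∃ A ∈ 𝓕, ‖a.sum fun j t => t • e j‖ - ε < ∑ i ∈ A, |a i| := by
  obtain ⟨r, ⟨A, hA, rfl⟩, hr, -⟩ :=
    (h.2 a).exists_between (show ‖a.sum fun j t => t • e j‖ - ε < _ by linarith)
  exact ⟨A, hA, by simpa using hr⟩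

/-- C1. coordinate functionals.  Hint: the norm formula with `{i} ∈ 𝓕` gives `|a i| ≤ ‖T a‖` for
`T = Finsupp.linearCombination ℝ e`, so `e` is linearly independent; take
`(Finsupp.lapply i) ∘ LinearIndependent.repr` on the span, `LinearMap.mkContinuous` with bound 1,
and extend by Hahn-Banach (`exists_extension_norm_eq`). -/
theorem exists_coord (𝓕 : Set (Finset ι)) (h1 : ∀ i : ι, {i} ∈ 𝓕) (e : ι → X)
    (h : IsCombSystem 𝓕 1 e) :
    ∃ c : ι → X →L[ℝ] ℝ, ∀ (a : ι →₀ ℝ) (i : ι), c i (a.sum fun j t => t • e j) = a i := by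
  classical
  set T : (ι →₀ ℝ) →ₗ[ℝ] X := Finsupp.linearCombination ℝ e with hT
  have hTa : ∀ a : ι →₀ ℝ, T a = a.sum fun j t => t • e j :=
    fun a => Finsupp.linearCombination_apply ℝ a
  have hle : ∀ (a : ι →₀ ℝ) (i : ι), |a i| ≤ ‖T a‖ := by
    intro a i
    have := comb_sum_le_span 𝓕 e h a {i} (h1 i)
    rw [hTa]
    simpa using this
  have hinj : Function.Injective T := by
    rw [← LinearMap.ker_eq_bot, LinearMap.ker_eq_bot']
    intro a ha
    ext i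
    have := hle a i
    rw [ha, norm_zero] at this
    simpa using abs_nonpos_iff.mp this
  let E := LinearEquiv.ofInjective T hinj
  have key : ∀ i, ∃ g : X →L[ℝ] ℝ, ∀ a : ι →₀ ℝ, g (T a) = a i := by
    intro i
    let f : LinearMap.range T →ₗ[ℝ] ℝ := (Finsupp.lapply i).comp E.symm.toLinearMap
    have hfE : ∀ a : ι →₀ ℝ, f (E a) = a i := by
      intro a
      simp [f]
    have hf : ∀ y : LinearMap.range T, ‖f y‖ ≤ 1 * ‖y‖ := by
      intro y
      obtain ⟨a, rfl⟩ := E.surjective y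
      rw [hfE, one_mul, Real.norm_eq_abs]
      exact hle a i
    obtain ⟨g, hg, -⟩ := exists_extension_norm_eq (LinearMap.range T) (f.mkContinuous 1 hf)
    refine ⟨g, fun a => ?_⟩
    have := hg (E a)
    rw [LinearMap.mkContinuous_apply, hfE] at this
    exact this
  choose c hc using key
  exact ⟨c, fun a i => by rw [← hTa]; exact hc i a⟩

/-- C2a. Hint: true on the dense span by the norm formula (`(∑ |a i| ^ (1:ℝ)) ^ (1 / (1:ℝ))`
simplifies), both sides are continuous. -/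
theorem comb_sum_le (𝓕 : Set (Finset ι)) (e : ι → X) (h : IsCombSystem 𝓕 1 e)
    (c : ι → X →L[ℝ] ℝ) (hc : ∀ (a : ι →₀ ℝ) (i : ι), c i (a.sum fun j t => t • e j) = a i)
    (x : X) (A : Finset ι) (hA : A ∈ 𝓕) : ∑ i ∈ A, |c i x| ≤ ‖x‖ := by
  have hclosed : IsClosed {x : X | ∑ i ∈ A, |c i x| ≤ ‖x‖} := by
    apply isClosed_le
    · exact continuous_finsetSum _ fun i _ => (c i).continuous.abs
    · exact continuous_norm
  have hsub : ((Submodule.span ℝ (Set.range e) : Submodule ℝ X) : Set X) ⊆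
      {x : X | ∑ i ∈ A, |c i x| ≤ ‖x‖} := by
    intro y hy
    obtain ⟨a, rfl⟩ := (Finsupp.mem_span_range_iff_exists_finsupp).1 hy
    simp only [Set.mem_ofPred_eq, hc]
    exact comb_sum_le_span 𝓕 e h a A hA
  have := hclosed.closure_subset_iff.2 hsub
  rw [h.1.closure_eq] at this
  exact this (mem_univ x)

/-- approximation of a vector by a finite linear combination -/
theorem comb_approx (𝓕 : Set (Finset ι)) (e : ι → X) (h : IsCombSystem 𝓕 1 e)
    (x : X) (η : ℝ) (hη : 0 < η) : ∃ a : ι →₀ ℝ, ‖x - a.sum fun j t => t • e j‖ < η := by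
  obtain ⟨y, hy, hxy⟩ := Metric.mem_closure_iff.1 (h.1 x) η hη
  obtain ⟨a, rfl⟩ := (Finsupp.mem_span_range_iff_exists_finsupp).1 hy
  exact ⟨a, by rwa [← dist_eq_norm]⟩

/-- C2b. Hint: approximate `x` by `x₀` in the span within `ε / 3`, use the least upper bound
property for `x₀` and C2a for `x - x₀`. -/
theorem comb_norming (𝓕 : Set (Finset ι)) (e : ι → X) (h : IsCombSystem 𝓕 1 e)
    (c : ι → X →L[ℝ] ℝ) (hc : ∀ (a : ι →₀ ℝ) (i : ι), c i (a.sum fun j t => t • e j) = a i)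
    (x : X) (ε : ℝ) (hε : 0 < ε) : ∃ A ∈ 𝓕, ‖x‖ - ε < ∑ i ∈ A, |c i x| := by
  obtain ⟨a, ha⟩ := comb_approx 𝓕 e h x (ε / 3) (by positivity)
  obtain ⟨A, hA, hA2⟩ := comb_norming_span 𝓕 e h a (ε / 3) (by positivity)
  refine ⟨A, hA, ?_⟩
  set x₀ := a.sum fun j t => t • e j with hx₀
  have h1 : ∑ i ∈ A, |c i (x - x₀)| ≤ ‖x - x₀‖ := comb_sum_le 𝓕 e h c hc _ A hA
  have h2 : ∑ i ∈ A, |a i| ≤ ∑ i ∈ A, |c i x| + ∑ i ∈ A, |c i (x - x₀)| := by
    rw [← Finset.sum_add_distrib]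
    apply Finset.sum_le_sum
    intro i _
    have : a i = c i x - c i (x - x₀) := by
      rw [map_sub, hx₀, hc]; ring
    rw [this]
    exact abs_sub _ _
  have h3 : ‖x‖ ≤ ‖x₀‖ + ‖x - x₀‖ := by
    calc ‖x‖ = ‖x₀ + (x - x₀)‖ := by congr 1; abel
      _ ≤ _ := norm_add_le _ _
  linarith

/-- C3. uniformly small tails.  Hint: `x₀ = T a` with `‖x - x₀‖ < η`, `S = a.support`;
`A \ S ∈ 𝓕` and `c i x = c i (x - x₀)` for `i ∉ S`; apply C2a to `x - x₀`. -/
theorem comb_tail [DecidableEq ι] (𝓕 : Set (Finset ι))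
    (hered : ∀ A ∈ 𝓕, ∀ B : Finset ι, B ⊆ A → B ∈ 𝓕) (e : ι → X) (h : IsCombSystem 𝓕 1 e)
    (c : ι → X →L[ℝ] ℝ) (hc : ∀ (a : ι →₀ ℝ) (i : ι), c i (a.sum fun j t => t • e j) = a i)
    (x : X) (η : ℝ) (hη : 0 < η) :
    ∃ S : Finset ι, ∀ A ∈ 𝓕, ∑ i ∈ A \ S, |c i x| ≤ η := by
  obtain ⟨a, ha⟩ := comb_approx 𝓕 e h x η hη
  refine ⟨a.support, fun A hA => ?_⟩
  set x₀ := a.sum fun j t => t • e j with hx₀
  have h1 : ∑ i ∈ A \ a.support, |c i (x - x₀)| ≤ ‖x - x₀‖ :=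
    comb_sum_le 𝓕 e h c hc _ _ (hered A hA _ Finset.sdiff_subset)
  have h2 : ∑ i ∈ A \ a.support, |c i x| = ∑ i ∈ A \ a.support, |c i (x - x₀)| := by
    apply Finset.sum_congr rfl
    intro i hi
    have hi' : a i = 0 := by
      have := (Finset.mem_sdiff.1 hi).2
      simpa using this
    rw [map_sub, hx₀, hc, hi', sub_zero]
  rw [h2]
  linarith

end Vale.Agent.P084
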