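import Vale.Agent.P084.Poly.CombDefs2

/-! # P084 Poly/Comb2 : maximal sets and the gap property
tasks C4, C5 of table p084_tasks.  Pure combinatorics of a function `y : ι → ℝ` (think of
`y i = c i x`). -/

namespace Vale.Agent.P084

open Set

universe u

variable {ι : Type u}

/-- reverse strict inclusion is well founded on a compact family -/
theorem IsCompactFamily.wf {𝓕 : Set (Finset ι)} (h : IsCompactFamily 𝓕) :
    WellFounded (fun (B' B : {B : Finset ι // B ∈ 𝓕}) => B.1 ⊂ B'.1) := by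
  rw [wellFounded_iff_isEmpty_descending_chain]
  exact ⟨fun f => h.noChain ⟨fun n => (f.1 n).1, fun n => (f.1 n).2, fun n => f.2 n⟩⟩

/-- C4. every member of a compact family is contained in a maximal member -/
theorem IsCompactFamily.exists_maximal {𝓕 : Set (Finset ι)} (h : IsCompactFamily 𝓕)
    (A : Finset ι) (hA : A ∈ 𝓕) :
    ∃ B ∈ 𝓕, A ⊆ B ∧ ∀ B' ∈ 𝓕, B ⊆ B' → B' = B := by
  obtain ⟨B, hB, hmin⟩ := h.wf.has_min {B : {B : Finset ι // B ∈ 𝓕} | A ⊆ B.1}
    ⟨⟨A, hA⟩, Finset.Subset.refl A⟩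
  refine ⟨B.1, B.2, hB, fun B' hB' hBB' => ?_⟩
  by_contra hne
  exact hmin ⟨B', hB'⟩ (Finset.Subset.trans hB hBB')
    (Finset.ssubset_iff_subset_ne.2 ⟨hBB', fun e => hne e.symm⟩)

theorem sign_mul_le {e t : ℝ} (he : e = 1 ∨ e = -1) : e * t ≤ |t| := by
  rcases he with rfl | rfl
  · simpa using le_abs_self t
  · simpa using neg_le_abs t

theorem neg_le_sign_mul {e t : ℝ} (he : e = 1 ∨ e = -1) : -|t| ≤ e * t := by
  rcases he with rfl | rfl
  · simpa using neg_abs_le t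
  · simpa using le_abs_self t

theorem exists_pos_le_finset (S : Finset ι) (d : ι → ℝ) (hd : ∀ k, 0 < d k) :
    ∃ δ : ℝ, 0 < δ ∧ ∀ k ∈ S, δ ≤ d k := by
  classical
  induction S using Finset.induction_on with
  | empty => exact ⟨1, one_pos, by simp⟩
  | insert a S _ ih =>
    obtain ⟨δ, hδ, h⟩ := ih
    refine ⟨min δ (d a), lt_min hδ (hd a), fun k hk => ?_⟩
    rcases Finset.mem_insert.1 hk with rfl | hk
    · exact min_le_right _ _
    · exact (min_le_left _ _).trans (h k hk)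

/-- the inductive statement for the gap property -/
theorem comb_gap_ind [DecidableEq ι] {𝓕 : Set (Finset ι)} (h : IsCompactFamily 𝓕) (y : ι → ℝ)
    (hle : ∀ A ∈ 𝓕, ∑ i ∈ A, |y i| ≤ 1)
    (htail : ∀ η : ℝ, 0 < η → ∃ S : Finset ι, ∀ A ∈ 𝓕, ∑ i ∈ A \ S, |y i| ≤ η)
    (B : {B : Finset ι // B ∈ 𝓕}) :
    ∀ ε : ι → ℝ, (∀ i, ε i = 1 ∨ ε i = -1) → ∃ δ : ℝ, 0 < δ ∧ ∀ A ∈ 𝓕, B.1 ⊆ A →
      ∀ ε' : ι → ℝ, (∀ i, ε' i = 1 ∨ ε' i = -1) → (∀ i ∈ B.1, ε' i = ε i) →
      ∑ i ∈ A, ε' i * y i = 1 ∨ ∑ i ∈ A, ε' i * y i ≤ 1 - δ := by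
  induction B using h.wf.induction with
  | _ B ih =>
  intro ε hε
  obtain ⟨B, hB⟩ := B
  simp only at ih ⊢
  -- splitting of sums
  have hsplit : ∀ (A : Finset ι) (f : ι → ℝ), B ⊆ A →
      ∑ i ∈ A, f i = ∑ i ∈ B, f i + ∑ i ∈ A \ B, f i := by
    intro A f hBA
    rw [add_comm, Finset.sum_sdiff hBA]
  have hσ1 : ∑ i ∈ B, ε i * y i ≤ ∑ i ∈ B, |y i| :=
    Finset.sum_le_sum fun i _ => sign_mul_le (hε i)
  have hσle : ∑ i ∈ B, ε i * y i ≤ 1 := hσ1.trans (hle B hB)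
  rcases hσle.eq_or_lt with hσ | hσ
  · refine ⟨1, one_pos, fun A hA hBA ε' hε' hag => Or.inl ?_⟩
    have e1 : ∑ i ∈ B, ε' i * y i = 1 := by
      rw [← hσ]
      exact Finset.sum_congr rfl fun i hi => by rw [hag i hi]
    have e2 := hsplit A (fun i => ε' i * y i) hBA
    have e3 := hsplit A (fun i => |y i|) hBA
    have e4 := hle A hA
    have e5 : -∑ i ∈ A \ B, |y i| ≤ ∑ i ∈ A \ B, ε' i * y i := by
      rw [← Finset.sum_neg_distrib]
      exact Finset.sum_le_sum fun i _ => neg_le_sign_mul (hε' i)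
    have e6 : ∑ i ∈ A, ε' i * y i ≤ ∑ i ∈ A, |y i| :=
      Finset.sum_le_sum fun i _ => sign_mul_le (hε' i)
    linarith
  · set σ := ∑ i ∈ B, ε i * y i with hσdef
    have hη : 0 < (1 - σ) / 2 := by linarith
    obtain ⟨S, hS⟩ := htail _ hη
    have key : ∀ k : ι, ∃ d : ℝ, 0 < d ∧ (k ∉ B → insert k B ∈ 𝓕 → ∀ A ∈ 𝓕, insert k B ⊆ A →
        ∀ ε' : ι → ℝ, (∀ i, ε' i = 1 ∨ ε' i = -1) → (∀ i ∈ B, ε' i = ε i) →
        ∑ i ∈ A, ε' i * y i = 1 ∨ ∑ i ∈ A, ε' i * y i ≤ 1 - d) := by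
      intro k
      by_cases hk : k ∉ B ∧ insert k B ∈ 𝓕
      · obtain ⟨hkB, hkF⟩ := hk
        have hss : B ⊂ insert k B := Finset.ssubset_insert hkB
        have hsgn : ∀ s : ℝ, (s = 1 ∨ s = -1) →
            ∀ i, Function.update ε k s i = 1 ∨ Function.update ε k s i = -1 := by
          intro s hs i
          by_cases hik : i = k
          · subst hik; simpa using hs
          · simpa [Function.update_of_ne hik] using hε i
        obtain ⟨d1, hd1, H1⟩ := ih ⟨insert k B, hkF⟩ hss (Function.update ε k 1)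
          (hsgn 1 (Or.inl rfl))
        obtain ⟨d2, hd2, H2⟩ := ih ⟨insert k B, hkF⟩ hss (Function.update ε k (-1))
          (hsgn (-1) (Or.inr rfl))
        refine ⟨min d1 d2, lt_min hd1 hd2, fun _ _ A hA hkA ε' hε' hag => ?_⟩
        have hagree : ∀ s : ℝ, ε' k = s → ∀ i ∈ insert k B, ε' i = Function.update ε k s i := by
          intro s hs i hi
          by_cases hik : i = k
          · subst hik; simpa using hs
          · rw [Function.update_of_ne hik]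
            exact hag i ((Finset.mem_insert.1 hi).resolve_left hik)
        rcases hε' k with hk1 | hk1
        · rcases H1 A hA hkA ε' hε' (hagree 1 hk1) with h1 | h1
          · exact Or.inl h1
          · exact Or.inr (h1.trans (by linarith [min_le_left d1 d2]))
        · rcases H2 A hA hkA ε' hε' (hagree (-1) hk1) with h1 | h1
          · exact Or.inl h1
          · exact Or.inr (h1.trans (by linarith [min_le_right d1 d2]))
      · refine ⟨1, one_pos, fun h1 h2 => absurd ⟨h1, h2⟩ hk⟩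
    choose d hd Hd using key
    obtain ⟨δ0, hδ0, hδ0le⟩ := exists_pos_le_finset S d hd
    refine ⟨min ((1 - σ) / 2) δ0, lt_min hη hδ0, fun A hA hBA ε' hε' hag => ?_⟩
    by_cases hex : ∃ k ∈ A, k ∈ S ∧ k ∉ B
    · obtain ⟨k, hkA, hkS, hkB⟩ := hex
      have hsub : insert k B ⊆ A := Finset.insert_subset hkA hBA
      rcases Hd k hkB (h.hered A hA _ hsub) A hA hsub ε' hε' hag with h1 | h1
      · exact Or.inl h1
      · refine Or.inr (h1.trans ?_)
        have := hδ0le k hkS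
        have := min_le_right ((1 - σ) / 2) δ0
        linarith
    · right
      have hsub : A \ B ⊆ A \ S := by
        intro i hi
        rw [Finset.mem_sdiff] at hi ⊢
        refine ⟨hi.1, fun hiS => hex ⟨i, hi.1, hiS, hi.2⟩⟩
      have e1 : ∑ i ∈ B, ε' i * y i = σ :=
        Finset.sum_congr rfl fun i hi => by rw [hag i hi]
      have e2 := hsplit A (fun i => ε' i * y i) hBA
      have e3 : ∑ i ∈ A \ B, ε' i * y i ≤ ∑ i ∈ A \ B, |y i| :=
        Finset.sum_le_sum fun i _ => sign_mul_le (hε' i)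
      have e4 : ∑ i ∈ A \ B, |y i| ≤ ∑ i ∈ A \ S, |y i| :=
        Finset.sum_le_sum_of_subset_of_nonneg hsub fun i _ _ => abs_nonneg _
      have e5 := hS A hA
      have e6 := min_le_left ((1 - σ) / 2) δ0
      linarith

/-- C5. the gap property.  `y` has `∑_A |y| ≤ 1` for all `A ∈ 𝓕` and uniformly small tails.
Proof: by well-founded induction on `B ∈ 𝓕` (upwards; no infinite increasing chain) prove
`Q B`: for every sign vector `ε` there is `δ > 0` such that for all `A ∈ 𝓕` with `B ⊆ A` and all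
sign vectors `ε'` agreeing with `ε` on `B`: `∑_A ε' y = 1` or `≤ 1 - δ`.
Let `σ = ∑_B ε y ≤ 1`.  If `σ = 1` then `y = 0` on `A \ B` (as `∑_A |y| ≤ 1`), so the sum is `1`.
If `σ < 1` put `η = (1 - σ) / 2`, take `S` from `htail η`.  If `A \ B` is disjoint from `S` then the sum is
`≤ σ + η = 1 - η`.  Otherwise `A ⊇ B ∪ {k}` for some `k ∈ S \ B` with `B ∪ {k} ∈ 𝓕`, use the
induction hypothesis for `B ∪ {k}` and the two sign vectors `Function.update ε k (±1)`; take the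
minimum of `η` and these finitely many `δ`'s.  Finally apply `Q ∅`. -/
theorem comb_gap_aux [DecidableEq ι] {𝓕 : Set (Finset ι)} (h : IsCompactFamily 𝓕) (y : ι → ℝ)
    (hle : ∀ A ∈ 𝓕, ∑ i ∈ A, |y i| ≤ 1)
    (htail : ∀ η : ℝ, 0 < η → ∃ S : Finset ι, ∀ A ∈ 𝓕, ∑ i ∈ A \ S, |y i| ≤ η) :
    ∃ δ : ℝ, 0 < δ ∧ ∀ A ∈ 𝓕, ∀ ε : ι → ℝ, (∀ i, ε i = 1 ∨ ε i = -1) →
      ∑ i ∈ A, ε i * y i = 1 ∨ ∑ i ∈ A, ε i * y i ≤ 1 - δ := by
  by_cases hne : ∃ A, A ∈ 𝓕
  · obtain ⟨A0, hA0⟩ := hne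
    have hemp : (∅ : Finset ι) ∈ 𝓕 := h.hered A0 hA0 ∅ (Finset.empty_subset _)
    obtain ⟨δ, hδ, H⟩ := comb_gap_ind h y hle htail ⟨∅, hemp⟩ (fun _ => 1) (fun _ => Or.inl rfl)
    exact ⟨δ, hδ, fun A hA ε hε => H A hA (Finset.empty_subset _) ε hε (by simp)⟩
  · exact ⟨1, one_pos, fun A hA => absurd ⟨A, hA⟩ hne⟩

end Vale.Agent.P084
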