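import Vale.Agent.P084.Poly.CombDefs2

/-! # P084 Poly/Comb3 : centres of the faces, rank
tasks C6, C7 of table p084_tasks -/

namespace Vale.Agent.P084

open Set

universe u v

variable {ι : Type u} {X : Type v} [NormedAddCommGroup X] [NormedSpace ℝ X]

/-- C6. the face of a maximal set `A` and a sign vector `ε` has nonempty interior.
Take `c₀ = (1/|A|) ∑_{i ∈ A} ε i • e i` and `ρ = 1 / (2 |A|)` (`A ≠ ∅` because `A` is maximal and
singletons belong to `𝓕`; `hne` is given).  For `‖v‖ < ρ` and `x = c₀ + v`: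
`∑_A ε i * c i x ≥ 1 - ρ` by `hle` applied to `v`; for `B ∈ 𝓕`, `∑_B |c i x| ≤ ∑_A ε i * c i x`:
if `A ⊆ B` then `B = A` and `|c i x| = ε i * c i x` because `|c i v| ≤ ‖v‖ < 1/|A|`;
otherwise `∑_B |c i c₀| ≤ (|A|-1)/|A|`, so `∑_B |c i x| ≤ 1 - 1/|A| + ρ = 1 - ρ`.
Conclude with `hnorming` (upper bound of the norm) and `hle` (lower bound). -/
theorem comb_center [DecidableEq ι] (𝓕 : Set (Finset ι)) (e : ι → X)
    (c : ι → X →L[ℝ] ℝ) (hc : ∀ (a : ι →₀ ℝ) (i : ι), c i (a.sum fun j t => t • e j) = a i)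
    (hle : ∀ (x : X) (A : Finset ι), A ∈ 𝓕 → ∑ i ∈ A, |c i x| ≤ ‖x‖)
    (hnorming : ∀ (x : X) (ε : ℝ), 0 < ε → ∃ A ∈ 𝓕, ‖x‖ - ε < ∑ i ∈ A, |c i x|)
    (A : Finset ι) (hA : A ∈ 𝓕) (hne : A.Nonempty) (hmax : ∀ B ∈ 𝓕, A ⊆ B → B = A)
    (ε : ι → ℝ) (hε : ∀ i, ε i = 1 ∨ ε i = -1) :
    ∃ (c₀ : X) (ρ : ℝ), 0 < ρ ∧ ‖c₀‖ = 1 ∧
      ∀ v : X, ‖v‖ < ρ → ‖c₀ + v‖ = ∑ i ∈ A, ε i * c i (c₀ + v) := by
  classical
  set K : ℝ := (A.card : ℝ) with hK
  have hKpos : 0 < K := by
    have : 0 < A.card := Finset.card_pos.mpr hne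
    rw [hK]
    exact_mod_cast this
  have hεsq : ∀ i, ε i * ε i = 1 := by
    intro i; rcases hε i with h | h <;> rw [h] <;> norm_num
  have hεabs : ∀ i, |ε i| = 1 := by
    intro i; rcases hε i with h | h <;> rw [h] <;> norm_num
  set a : ι →₀ ℝ := Finsupp.indicator A (fun i _ => ε i / K) with ha
  set c₀ : X := a.sum fun j t => t • e j with hc₀
  have hcc : ∀ i, c i c₀ = if i ∈ A then ε i / K else 0 := by
    intro i
    rw [hc₀, hc a i, ha, Finsupp.indicator_apply]
    by_cases h : i ∈ A <;> simp [h]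
  have hρ : 0 < 1 / (2 * K) := by positivity
  -- the main formula
  have main : ∀ v : X, ‖v‖ < 1 / (2 * K) → ‖c₀ + v‖ = ∑ i ∈ A, ε i * c i (c₀ + v) := by
    intro v hv
    have hvA : ∑ i ∈ A, |c i v| ≤ ‖v‖ := hle v A hA
    have hvi : ∀ i ∈ A, |c i v| ≤ ‖v‖ := by
      intro i hi
      exact le_trans (Finset.single_le_sum (f := fun i => |c i v|)
        (fun j _ => abs_nonneg _) hi) hvA
    have hterm : ∀ i ∈ A, ε i * c i (c₀ + v) = 1 / K + ε i * c i v := by
      intro i hi
      rw [map_add, hcc i, if_pos hi, mul_add, ← mul_div_assoc, hεsq i]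
    have hS : ∑ i ∈ A, ε i * c i (c₀ + v) = 1 + ∑ i ∈ A, ε i * c i v := by
      rw [Finset.sum_congr rfl hterm, Finset.sum_add_distrib, Finset.sum_const, nsmul_eq_mul,
        ← hK]
      field_simp
    have hSlow : 1 - ‖v‖ ≤ ∑ i ∈ A, ε i * c i (c₀ + v) := by
      rw [hS]
      have : -(∑ i ∈ A, |c i v|) ≤ ∑ i ∈ A, ε i * c i v := by
        rw [← Finset.sum_neg_distrib]
        apply Finset.sum_le_sum
        intro i _
        have := neg_abs_le (ε i * c i v)
        rwa [abs_mul, hεabs i, one_mul] at this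
      linarith
    have h2K : 1 / K = 2 * (1 / (2 * K)) := by field_simp
    have hkey : ∀ B ∈ 𝓕, ∑ i ∈ B, |c i (c₀ + v)| ≤ ∑ i ∈ A, ε i * c i (c₀ + v) := by
      intro B hB
      by_cases hAB : A ⊆ B
      · rw [hmax B hB hAB]
        apply le_of_eq
        apply Finset.sum_congr rfl
        intro i hi
        have hpos : 0 ≤ ε i * c i (c₀ + v) := by
          rw [hterm i hi]
          have h1 := neg_abs_le (ε i * c i v)
          rw [abs_mul, hεabs i, one_mul] at h1
          have h2 := hvi i hi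
          linarith
        rw [← abs_of_nonneg hpos, abs_mul, hεabs i, one_mul]
      · -- B does not contain A
        have h1 : ∑ i ∈ B, |c i (c₀ + v)| ≤ ∑ i ∈ B, |c i c₀| + ∑ i ∈ B, |c i v| := by
          rw [← Finset.sum_add_distrib]
          apply Finset.sum_le_sum
          intro i _
          rw [map_add]
          exact abs_add_le _ _
        have h2 : ∑ i ∈ B, |c i v| ≤ ‖v‖ := hle v B hB
        have h3 : ∑ i ∈ B, |c i c₀| = ((B ∩ A).card : ℝ) * (1 / K) := by
          have : ∀ i ∈ B, |c i c₀| = if i ∈ A then 1 / K else 0 := by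
            intro i _
            rw [hcc i]
            by_cases h : i ∈ A
            · simp only [h, if_true]
              rw [abs_div, hεabs i, abs_of_pos hKpos]
            · simp [h]
          rw [Finset.sum_congr rfl this, ← Finset.sum_filter, Finset.sum_const, nsmul_eq_mul,
            Finset.filter_mem_eq_inter]
        have h4 : (B ∩ A).card + 1 ≤ A.card := by
          have : B ∩ A ⊂ A := by
            refine ⟨Finset.inter_subset_right, fun h => hAB ?_⟩
            intro i hi
            exact (Finset.mem_inter.mp (h hi)).1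
          exact Finset.card_lt_card this
        have h5 : ((B ∩ A).card : ℝ) + 1 ≤ K := by
          rw [hK]; exact_mod_cast h4
        have h6 : ((B ∩ A).card : ℝ) * (1 / K) ≤ 1 - 1 / K := by
          have : ((B ∩ A).card : ℝ) * (1 / K) ≤ (K - 1) * (1 / K) := by
            apply mul_le_mul_of_nonneg_right (by linarith) (by positivity)
          have h7 : (K - 1) * (1 / K) = 1 - 1 / K := by field_simp
          linarith
        linarith
    apply le_antisymm
    · apply le_of_forall_pos_lt_add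
      intro η hη
      obtain ⟨B, hB, hlt⟩ := hnorming (c₀ + v) η hη
      have := hkey B hB
      linarith
    · calc ∑ i ∈ A, ε i * c i (c₀ + v) ≤ ∑ i ∈ A, |c i (c₀ + v)| := by
            apply Finset.sum_le_sum
            intro i _
            have := le_abs_self (ε i * c i (c₀ + v))
            rwa [abs_mul, hεabs i, one_mul] at this
        _ ≤ ‖c₀ + v‖ := hle _ A hA
  refine ⟨c₀, 1 / (2 * K), hρ, ?_, main⟩
  have h0 := main 0 (by simpa using hρ)
  rw [add_zero] at h0
  rw [h0]
  have : ∀ i ∈ A, ε i * c i c₀ = 1 / K := by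
    intro i hi
    rw [hcc i, if_pos hi, ← mul_div_assoc, hεsq i]
  rw [Finset.sum_congr rfl this, Finset.sum_const, nsmul_eq_mul, ← hK]
  field_simp

/-- C7. the space has dimension at least two -/
theorem comb_rank [Nontrivial ι] (e : ι → X)
    (c : ι → X →L[ℝ] ℝ) (hc : ∀ (a : ι →₀ ℝ) (i : ι), c i (a.sum fun j t => t • e j) = a i) :
    1 < Module.rank ℝ X := by
  classical
  obtain ⟨i, j, hij⟩ := exists_pair_ne ι
  have hce : ∀ k l, c k (e l) = if l = k then 1 else 0 := by
    intro k l
    have := hc (Finsupp.single l 1) k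
    rw [Finsupp.sum_single_index (by simp), one_smul, Finsupp.single_apply] at this
    exact this
  have hli : LinearIndependent ℝ ![e i, e j] := by
    rw [LinearIndependent.pair_iff]
    intro s t hst
    have h1 := congrArg (c i) hst
    have h2 := congrArg (c j) hst
    simp only [map_add, map_smul, map_zero, hce, smul_eq_mul] at h1 h2
    simp [hij, hij.symm] at h1 h2
    exact ⟨h1, h2⟩
  have h := hli.cardinal_lift_le_rank
  simp at h
  exact lt_of_lt_of_le (by norm_num) h

end Vale.Agent.P084
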