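import Vale.Agent.P084.CombDefs
import Vale.Agent.P084.Poly.Defs

namespace Vale.Agent.P084

universe u

/-- a compact hereditary family of finite sets covering the index set: it is closed under subsets,
contains all singletons, and contains no infinite strictly increasing sequence (equivalently,
there is no infinite set all of whose finite subsets belong to the family) -/
structure IsCompactFamily {ι : Type u} (𝓕 : Set (Finset ι)) : Prop where
  hered : ∀ A ∈ 𝓕, ∀ B : Finset ι, B ⊆ A → B ∈ 𝓕
  single : ∀ i : ι, {i} ∈ 𝓕
  noChain : ¬ ∃ A : ℕ → Finset ι, (∀ n, A n ∈ 𝓕) ∧ ∀ n, A n ⊂ A (n + 1)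

end Vale.Agent.P084
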