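import Vale.Agent.P084.Poly.CombDefs2

namespace Vale.Agent.P084

universe u

lemma chain_card {ι : Type u} (A : ℕ → Finset ι) (h : ∀ n, A n ⊂ A (n + 1)) (n : ℕ) :
    n ≤ (A n).card := by
  induction n with
  | zero => exact Nat.zero_le _
  | succ n ih =>
    have := Finset.card_lt_card (h n)
    omega

lemma chain_mono {ι : Type u} (A : ℕ → Finset ι) (h : ∀ n, A n ⊂ A (n + 1)) {m n : ℕ}
    (hmn : m ≤ n) : A m ⊆ A n := by
  induction n, hmn using Nat.le_induction with
  | base => exact Finset.Subset.refl _
  | succ n _ ih => exact ih.trans (h n).1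

/-- the family of all sets with at most `k` elements is compact and hereditary -/
theorem isCompactFamily_card (ι : Type u) (k : ℕ) (hk : 1 ≤ k) :
    IsCompactFamily {F : Finset ι | F.card ≤ k} := by
  refine ⟨?_, ?_, ?_⟩
  · intro A hA B hB
    exact le_trans (Finset.card_le_card hB) hA
  · intro i
    change ({i} : Finset ι).card ≤ k
    rw [Finset.card_singleton]; exact hk
  · rintro ⟨A, hA, hch⟩
    have h1 := chain_card A hch (k + 1)
    have h2 : (A (k + 1)).card ≤ k := hA (k + 1)
    omega

/-- the classical Schreier family is compact and hereditary -/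
theorem isCompactFamily_schreier :
    IsCompactFamily {F : Finset ℕ+ | ∀ i ∈ F, F.card ≤ (i : ℕ)} := by
  refine ⟨?_, ?_, ?_⟩
  · intro A hA B hB i hi
    exact le_trans (Finset.card_le_card hB) (hA i (hB hi))
  · intro i j hj
    rw [Finset.mem_singleton] at hj
    rw [Finset.card_singleton, hj]
    exact i.2
  · rintro ⟨A, hA, hch⟩
    have h1 : 1 ≤ (A 1).card := chain_card A hch 1
    obtain ⟨i, hi⟩ := Finset.card_pos.mp h1
    have h2 : i ∈ A ((i : ℕ) + 1) := chain_mono A hch (by omega) hi
    have h3 := hA _ i h2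
    have h4 := chain_card A hch ((i : ℕ) + 1)
    omega

end Vale.Agent.P084
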