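import Vale.Agent.P084.Poly.Main
import Vale.Agent.P084.Poly.Comb1
import Vale.Agent.P084.Poly.Comb2
import Vale.Agent.P084.Poly.Comb3

namespace Vale.Agent.P084

open Set

universe u v w

variable {ι : Type u} {X : Type v} [NormedAddCommGroup X] [NormedSpace ℝ X]

/-- Every real combinatorial Banach space of a compact hereditary family has the Mazur-Ulam
property. -/
theorem comb_poly_mup [Nontrivial ι] (𝓕 : Set (Finset ι)) (h𝓕 : IsCompactFamily 𝓕) (e : ι → X)
    (h : IsCombSystem 𝓕 1 e) : MazurUlamProperty.{v, w} X := by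
  classical
  obtain ⟨c, hc⟩ := exists_coord 𝓕 h𝓕.single e h
  have hle := comb_sum_le 𝓕 e h c hc
  have hnorming := comb_norming 𝓕 e h c hc
  let J : Type u := {p : Finset ι × (ι → ℝ) // p.1 ∈ 𝓕 ∧ (∀ B ∈ 𝓕, p.1 ⊆ B → B = p.1) ∧
    ∀ i, p.2 i = 1 ∨ p.2 i = -1}
  let φ : J → X →L[ℝ] ℝ := fun p => ∑ i ∈ p.1.1, p.1.2 i • c i
  have hφ : ∀ (p : J) (x : X), φ p x = ∑ i ∈ p.1.1, p.1.2 i * c i x := by
    intro p x
    simp only [φ, ContinuousLinearMap.sum_apply, ContinuousLinearMap.smul_apply, smul_eq_mul]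
  have hsign : ∀ (s t : ℝ), (s = 1 ∨ s = -1) → s * t ≤ |t| := by
    intro s t hs
    rcases hs with rfl | rfl
    · rw [one_mul]; exact le_abs_self t
    · rw [neg_one_mul]; exact neg_le_abs t
  refine poly_mup (ι := J) ⟨φ, ?_, ?_, ?_, ?_⟩ (comb_rank e c hc)
  · intro p x
    rw [hφ]
    exact le_trans (Finset.sum_le_sum (fun i _ => hsign _ _ (p.2.2.2 i))) (hle x p.1.1 p.2.1)
  · intro x ε hε
    obtain ⟨A, hA, hAx⟩ := hnorming x ε hε
    obtain ⟨B, hB, hAB, hmax⟩ := h𝓕.exists_maximal A hA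
    let s : ι → ℝ := fun i => if 0 ≤ c i x then 1 else -1
    have hs : ∀ i, s i = 1 ∨ s i = -1 := by
      intro i
      by_cases h0 : 0 ≤ c i x
      · left; simp only [s, if_pos h0]
      · right; simp only [s, if_neg h0]
    have hsx : ∀ i, s i * c i x = |c i x| := by
      intro i
      by_cases h0 : 0 ≤ c i x
      · simp only [s, if_pos h0, one_mul, abs_of_nonneg h0]
      · simp only [s, if_neg h0, neg_one_mul, abs_of_neg (not_le.mp h0)]
    refine ⟨⟨(B, s), hB, hmax, hs⟩, ?_⟩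
    rw [hφ]
    change ‖x‖ - ε < ∑ i ∈ B, s i * c i x
    rw [Finset.sum_congr rfl (fun i _ => hsx i)]
    exact lt_of_lt_of_le hAx
      (Finset.sum_le_sum_of_subset_of_nonneg hAB (fun i _ _ => abs_nonneg _))
  · intro x hx
    obtain ⟨δ, hδ, hgap⟩ := comb_gap_aux h𝓕 (fun i => c i x)
      (fun A hA => by rw [← hx]; exact hle x A hA)
      (fun η hη => comb_tail 𝓕 h𝓕.hered e h c hc x η hη)
    refine ⟨δ, hδ, ?_⟩
    intro p
    rw [hφ]
    exact hgap p.1.1 p.2.1 p.1.2 p.2.2.2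
  · intro p
    have hne : p.1.1.Nonempty := by
      rw [Finset.nonempty_iff_ne_empty]
      intro hempty
      obtain ⟨i⟩ : Nonempty ι := inferInstance
      have := p.2.2.1 {i} (h𝓕.single i) (by rw [hempty]; exact Finset.empty_subset _)
      rw [hempty] at this
      exact Finset.singleton_ne_empty i this
    obtain ⟨c₀, ρ, hρ, hc₀, hfl⟩ := comb_center 𝓕 e c hc hle hnorming p.1.1 p.2.1 hne p.2.2.1
      p.1.2 p.2.2.2
    refine ⟨c₀, ρ, hρ, hc₀, ?_⟩
    intro v hv
    rw [hφ]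
    exact hfl v hv

end Vale.Agent.P084
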