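import Vale.Agent.P084.Poly.CombDefs2
import Vale.Agent.P084.Tsi

namespace Vale.Agent.P084

variable {𝓕 : Set (Finset ℕ+)}

/-- TASK S1.  Generalized Schreier families are hereditary.  Induction on `IsSchreierFamily`:
`zero`: cardinality; `succ`: if `B ⊆ ⋃ E j` then `B = ⋃ (E j ∩ B)`; `lim`: immediate. -/
lemma IsSchreierFamily.hered (h : IsSchreierFamily 𝓕) :
    ∀ A ∈ 𝓕, ∀ B : Finset ℕ+, B ⊆ A → B ∈ 𝓕 := by
  classical
  induction h with
  | zero =>
    intro A hA B hB
    exact le_trans (Finset.card_le_card hB) hA
  | succ 𝓕 _ ih =>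
    rintro A ⟨n, E, hE, hn, hsucc, rfl⟩ B hB
    refine ⟨n, fun j => E j ∩ B, fun j => ih (E j) (hE j) _ Finset.inter_subset_left, ?_, ?_, ?_⟩
    · intro j i hi
      exact hn j i (Finset.mem_inter.mp hi).1
    · intro j j' hjj i hi i' hi'
      exact hsucc j j' hjj i (Finset.mem_inter.mp hi).1 i' (Finset.mem_inter.mp hi').1
    · ext x
      simp only [Finset.mem_biUnion, Finset.mem_univ, true_and, Finset.mem_inter]
      constructor
      · intro hx
        have := hB hx
        simp only [Finset.mem_biUnion, Finset.mem_univ, true_and] at this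
        obtain ⟨j, hj⟩ := this
        exact ⟨j, hj, hx⟩
      · rintro ⟨j, _, hx⟩
        exact hx
  | lim 𝓕 _ ih =>
    rintro A ⟨n, hn, hA⟩ B hB
    exact ⟨n, fun i hi => hn i (hB hi), ih n A hA B hB⟩

/-- TASK S2.  No infinite set has all its initial segments in a generalized Schreier family.
Induction on `IsSchreierFamily` (the statement is for all `m`), using `IsSchreierFamily.hered`.
`zero`: `k = 2`.
`lim`: let `n₀ = m 0`; for each `n ≤ n₀` there is `k n` with the initial segment of length `k n`
not in `𝓕 n`; take `k = max 1 (max_n k n)`; if the initial segment `G` of length `k` were in the limit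
family, then `G ∈ 𝓕 n` for some `n ≤ m 0`, and by heredity so would be the one of length `k n`.
`succ`: let `n₀ = m 0`.  Applying the induction hypothesis to the shifted sequences build
`0 = k 0 < k 1 < ... < k (n₀+1)` such that every block `I l = m '' [k l, k (l+1))` is not in `𝓕`.
Suppose `G = m '' [0, k (n₀+1)) = ⋃_{j < n} E j` with `E j ∈ 𝓕` successive and `n ≤ n₀`.  Let `j l`
be the index with `m (k l) ∈ E (j l)`.  As `I l ⊄ E (j l)` (heredity), some element of `I l` lies in
`E j'` with `j' > j l`; hence `j (l+1) > j l`.  So `j` is strictly increasing on `n₀ + 1` values in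
`Fin n`, `n ≤ n₀`: contradiction. -/
lemma IsSchreierFamily.exists_initial_notMem (h : IsSchreierFamily 𝓕) :
    ∀ m : ℕ → ℕ+, StrictMono m → ∃ k : ℕ, (Finset.range k).image m ∉ 𝓕 := by
  classical
  induction h with
  | zero =>
    intro m hm
    refine ⟨2, ?_⟩
    intro hmem
    have hcard : ((Finset.range 2).image m).card = 2 := by
      rw [Finset.card_image_of_injective _ hm.injective, Finset.card_range]
    have h1 : ((Finset.range 2).image m).card ≤ 1 := hmem
    omega
  | succ 𝓕 h𝓕 ih =>
    have Q : ∀ N : ℕ, ∀ m : ℕ → ℕ+, StrictMono m → ∃ k : ℕ, ∀ (n : ℕ) (E : Fin n → Finset ℕ+)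
        (S : Finset (Fin n)), S.card ≤ N → (∀ j, E j ∈ 𝓕) →
        (∀ j j', j < j' → ∀ i ∈ E j, ∀ i' ∈ E j', i < i') →
        ¬ (Finset.range k).image m ⊆ S.biUnion E := by
      intro N
      induction N with
      | zero =>
        intro m hm
        refine ⟨1, ?_⟩
        intro n E S hS _ _ hsub
        have hS0 : S = ∅ := Finset.card_eq_zero.mp (Nat.le_zero.mp hS)
        have h0 : m 0 ∈ S.biUnion E := hsub (Finset.mem_image_of_mem m (by simp))
        rw [hS0] at h0
        simp at h0
      | succ N ihN =>
        intro m hm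
        obtain ⟨k₁, hk₁⟩ := ih m hm
        have hm' : StrictMono (fun i => m (i + k₁)) := fun a b hab => hm (by omega)
        obtain ⟨k₂, hk₂⟩ := ihN _ hm'
        refine ⟨k₁ + k₂, ?_⟩
        intro n E S hS hE hsucc hsub
        set S' := S.filter (fun j => ∃ i, k₁ ≤ i ∧ m i ∈ E j) with hS'
        have hsub' : (Finset.range k₂).image (fun i => m (i + k₁)) ⊆ S'.biUnion E := by
          intro x hx
          rw [Finset.mem_image] at hx
          obtain ⟨i, hi, rfl⟩ := hx
          rw [Finset.mem_range] at hi
          have h2 : m (i + k₁) ∈ S.biUnion E :=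
            hsub (Finset.mem_image_of_mem m (by rw [Finset.mem_range]; omega))
          rw [Finset.mem_biUnion] at h2 ⊢
          obtain ⟨j, hj, hmj⟩ := h2
          exact ⟨j, Finset.mem_filter.mpr ⟨hj, i + k₁, by omega, hmj⟩, hmj⟩
        have hcard : ¬ S'.card ≤ N := fun hc => hk₂ n E S' hc hE hsucc hsub'
        have hSS : S' = S :=
          Finset.eq_of_subset_of_card_le (Finset.filter_subset _ _) (by omega)
        have hne : S.Nonempty := by
          rw [← Finset.card_pos, ← hSS]; omega
        set j₀ := S.min' hne with hj₀def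
        apply hk₁
        apply h𝓕.hered (E j₀) (hE j₀)
        intro x hx
        rw [Finset.mem_image] at hx
        obtain ⟨i, hi, rfl⟩ := hx
        rw [Finset.mem_range] at hi
        have h2 : m i ∈ S.biUnion E :=
          hsub (Finset.mem_image_of_mem m (by rw [Finset.mem_range]; omega))
        rw [Finset.mem_biUnion] at h2
        obtain ⟨j, hj, hmj⟩ := h2
        have hle : j₀ ≤ j := S.min'_le j hj
        rcases hle.eq_or_lt with heq | hlt
        · rw [heq]; exact hmj
        · exfalso
          have hj₀ : j₀ ∈ S' := by rw [hSS]; exact S.min'_mem hne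
          obtain ⟨_, i', hi', hmi'⟩ := Finset.mem_filter.mp hj₀
          have h3 := hsucc j₀ j hlt _ hmi' _ hmj
          have h4 : m i < m i' := hm (by omega)
          exact absurd h3 (not_lt.mpr h4.le)
    intro m hm
    obtain ⟨k, hk⟩ := Q (m 0 : ℕ) m hm
    refine ⟨k + 1, ?_⟩
    rintro ⟨n, E, hE, hn, hsucc, heq⟩
    have h0 : m 0 ∈ Finset.univ.biUnion E := by
      rw [← heq]; exact Finset.mem_image_of_mem m (by simp)
    rw [Finset.mem_biUnion] at h0
    obtain ⟨j, _, hj⟩ := h0
    have hn0 := hn j _ hj
    apply hk n E Finset.univ (by simpa using hn0) hE hsucc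
    rw [← heq]
    exact Finset.image_subset_image (Finset.range_subset_range.mpr (Nat.le_succ k))
  | lim 𝓕 h𝓕 ih =>
    intro m hm
    choose k hk using fun n => ih n m hm
    refine ⟨(Finset.range ((m 0 : ℕ) + 1)).sup k + 1, ?_⟩
    rintro ⟨n, hn, hmem⟩
    have hn0 : n ≤ (m 0 : ℕ) := hn _ (Finset.mem_image_of_mem m (by simp))
    apply hk n
    apply (h𝓕 n).hered _ hmem
    apply Finset.image_subset_image
    rw [Finset.range_subset_range]
    have h5 : k n ≤ (Finset.range ((m 0 : ℕ) + 1)).sup k :=
      Finset.le_sup (by rw [Finset.mem_range]; omega)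
    omega

/-- TASK S3.  Generalized Schreier families are compact hereditary families.
`single`: `IsSchreierFamily.singleton_mem`.  `noChain`: the union `U` of a strictly increasing chain
`A n` is an infinite subset of `ℕ+`; enumerate it increasingly (`Nat.nth` or
`Nat.Subtype.orderIsoOfNat` after transport to `ℕ`); every initial segment is a finite subset of `U`,
hence contained in some `A n` and so in `𝓕` by heredity; contradiction with
`exists_initial_notMem`. -/
theorem IsSchreierFamily.isCompactFamily (h : IsSchreierFamily 𝓕) : IsCompactFamily 𝓕 := by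
  classical
  refine ⟨h.hered, h.singleton_mem, ?_⟩
  rintro ⟨A, hA, hlt⟩
  set U : Set ℕ+ := ⋃ n, (A n : Set ℕ+) with hU
  have hmono : Monotone A := monotone_nat_of_le_succ (fun n => (hlt n).subset)
  have hcard : ∀ n, n ≤ (A n).card := by
    intro n
    induction n with
    | zero => exact Nat.zero_le _
    | succ n ih => exact lt_of_le_of_lt ih (Finset.card_lt_card (hlt n))
  have hinf : U.Infinite := by
    intro hfin
    have hle : ∀ n, (A n).card ≤ hfin.toFinset.card := fun n => Finset.card_le_card (by
      intro x hx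
      rw [Set.Finite.mem_toFinset]
      exact Set.mem_iUnion.mpr ⟨n, hx⟩)
    have h1 := hcard (hfin.toFinset.card + 1)
    have h2 := hle (hfin.toFinset.card + 1)
    omega
  have : Nonempty U := hinf.nonempty.to_subtype
  have : NoMaxOrder U := ⟨fun a => by
    obtain ⟨b, hb, hab⟩ := hinf.exists_gt (a : ℕ+)
    exact ⟨⟨b, hb⟩, hab⟩⟩
  obtain ⟨f, hf⟩ := Nat.exists_strictMono U
  set m : ℕ → ℕ+ := fun n => (f n : ℕ+) with hm
  have hmm : StrictMono m := fun a b hab => hf hab
  have hsub : ∀ k, ∃ n, (Finset.range k).image m ⊆ A n := by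
    intro k
    induction k with
    | zero => exact ⟨0, by simp⟩
    | succ k ih =>
      obtain ⟨n, hn⟩ := ih
      obtain ⟨n', hn'⟩ := Set.mem_iUnion.mp (f k).2
      refine ⟨max n n', ?_⟩
      rw [Finset.range_add_one, Finset.image_insert]
      intro x hx
      rcases Finset.mem_insert.mp hx with rfl | hx
      · exact hmono (le_max_right _ _) hn'
      · exact hmono (le_max_left _ _) (hn hx)
  obtain ⟨k, hk⟩ := h.exists_initial_notMem m hmm
  obtain ⟨n, hn⟩ := hsub k
  exact hk (h.hered _ (hA n) _ hn)

end Vale.Agent.P084
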