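import Vale.Agent.P084.Poly.Main

namespace Vale.Agent.P084

open Metric Set

set_option linter.unusedSectionVars false

universe u v w

variable {ι : Type u} {Z : Type v} [NormedAddCommGroup Z] [NormedSpace ℝ Z]

/-- a finite union of faces covering a relatively open piece of the sphere: one of the faces has
nonempty interior in the sphere -/
lemma exists_face_interior [DecidableEq ι] (φ : ι → Z →L[ℝ] ℝ) (hle : ∀ i x, φ i x ≤ ‖x‖)
    (A : Finset ι) :
    ∀ (y : Z) (r : ℝ), ‖y‖ = 1 → 0 < r → (∀ z, ‖z‖ = 1 → ‖z - y‖ < r → ∃ i ∈ A, φ i z = 1) →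
      ∃ i ∈ A, ∃ (y' : Z) (r' : ℝ), ‖y'‖ = 1 ∧ 0 < r' ∧ ∀ z, ‖z‖ = 1 → ‖z - y'‖ < r' → φ i z = 1 := by
  induction A using Finset.induction_on with
  | empty =>
    intro y r hy hr h
    obtain ⟨i, hi, -⟩ := h y hy (by rw [sub_self, norm_zero]; exact hr)
    exact absurd hi (Finset.notMem_empty i)
  | insert k A _ ih =>
    intro y r hy hr h
    by_cases hall : ∀ z, ‖z‖ = 1 → ‖z - y‖ < r → φ k z = 1
    · exact ⟨k, Finset.mem_insert_self _ _, y, r, hy, hr, hall⟩
    · push Not at hall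
      obtain ⟨z0, hz0, hz0y, hk⟩ := hall
      have hlt : φ k z0 < 1 := lt_of_le_of_ne (by rw [← hz0]; exact hle k z0) hk
      set r0 : ℝ := min (r - ‖z0 - y‖) (1 - φ k z0) with hr0
      have hr0pos : 0 < r0 := lt_min (by linarith) (by linarith)
      obtain ⟨i, hi, y', r', h1, h2, h3⟩ := ih z0 r0 hz0 hr0pos (by
        intro z hz hzz
        have h4 : ‖z - y‖ < r := by
          have := norm_add_le (z - z0) (z0 - y)
          rw [sub_add_sub_cancel] at this
          have h5 : r0 ≤ r - ‖z0 - y‖ := min_le_left _ _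
          linarith
        obtain ⟨i, hi, hiz⟩ := h z hz h4
        rcases Finset.mem_insert.mp hi with rfl | hiA
        · exfalso
          have h5 := hle i (z - z0)
          rw [map_sub, hiz] at h5
          have h6 : r0 ≤ 1 - φ i z0 := min_le_right _ _
          linarith
        · exact ⟨i, hiA, hiz⟩)
      exact ⟨i, Finset.mem_insert_of_mem hi, y', r', h1, h2, h3⟩

/-- a face containing a relatively open piece of the sphere has a flat centre -/
lemma flat_of_interior {φ : Z →L[ℝ] ℝ} {y : Z} {r : ℝ} (hy : ‖y‖ = 1)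
    (h : ∀ z, ‖z‖ = 1 → ‖z - y‖ < r → φ z = 1) : Flat φ y (min (r / 2) 1) := by
  intro v hv
  have hv1 : ‖v‖ < 1 := lt_of_lt_of_le hv (min_le_right _ _)
  have hv2 : ‖v‖ < r / 2 := lt_of_lt_of_le hv (min_le_left _ _)
  obtain ⟨hpos, hcl⟩ := norm_normalize_sub_le hy hv1
  have hn : ‖‖y + v‖⁻¹ • (y + v)‖ = 1 := by
    rw [norm_smul, norm_inv, norm_norm, inv_mul_cancel₀ hpos.ne']
  have h1 := h _ hn (by linarith)
  rw [map_smul, smul_eq_mul] at h1
  field_simp at h1
  linarith

/-- polyhedral structure from a norming family with the gap property and finite active sets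
(property (IV) of Fonf and Vesely) -/
theorem poly_fin_mup (hrank : 1 < Module.rank ℝ Z) (φ : ι → Z →L[ℝ] ℝ)
    (hle : ∀ i x, φ i x ≤ ‖x‖)
    (hnorming : ∀ x : Z, ∀ ε : ℝ, 0 < ε → ∃ i, ‖x‖ - ε < φ i x)
    (hgap : ∀ x : Z, ‖x‖ = 1 → ∃ δ : ℝ, 0 < δ ∧ ∀ i, φ i x = 1 ∨ φ i x ≤ 1 - δ)
    (hfin : ∀ x : Z, ‖x‖ = 1 → {i | φ i x = 1}.Finite) :
    MazurUlamProperty.{v, w} Z := by
  classical
  have hact : ∀ x : Z, ‖x‖ = 1 → ∃ i, φ i x = 1 := by
    intro x hx
    obtain ⟨δ, hδ, hg⟩ := hgap x hx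
    obtain ⟨i, hi⟩ := hnorming x δ hδ
    refine ⟨i, ?_⟩
    rcases hg i with h | h
    · exact h
    · rw [hx] at hi; linarith
  let J : Type u := {i : ι // ∃ (c : Z) (ρ : ℝ), 0 < ρ ∧ ‖c‖ = 1 ∧ Flat (φ i) c ρ}
  have key : ∀ x : Z, ‖x‖ = 1 → ∃ j : J, φ j.1 x = 1 := by
    intro x hx
    obtain ⟨δ, hδ, hg⟩ := hgap x hx
    obtain ⟨i, hi, y', r', h1, h2, h3⟩ := exists_face_interior φ hle (hfin x hx).toFinset x δ hx hδ
      (by
        intro z hz hzx
        obtain ⟨i, hi⟩ := hact z hz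
        refine ⟨i, ?_, hi⟩
        rw [Set.Finite.mem_toFinset]
        rcases hg i with h | h
        · exact h
        · exfalso
          have := hle i (z - x)
          rw [map_sub, hi] at this
          linarith)
    rw [Set.Finite.mem_toFinset] at hi
    exact ⟨⟨i, y', min (r' / 2) 1, lt_min (by positivity) one_pos, h1, flat_of_interior h1 h3⟩, hi⟩
  have hnt : Nontrivial Z := by
    by_contra hnt
    rw [not_nontrivial_iff_subsingleton] at hnt
    have := rank_subsingleton' ℝ Z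
    rw [this] at hrank
    exact absurd hrank (by simp)
  refine poly_mup (ι := J) ⟨fun j => φ j.1, fun j x => hle j.1 x, ?_, ?_, fun j => j.2⟩ hrank
  · intro x ε hε
    by_cases hx0 : x = 0
    · obtain ⟨x1, hx1⟩ := exists_ne (0 : Z)
      have hpos : 0 < ‖x1‖ := norm_pos_iff.mpr hx1
      obtain ⟨j, -⟩ := key (‖x1‖⁻¹ • x1) (by
        rw [norm_smul, norm_inv, norm_norm, inv_mul_cancel₀ hpos.ne'])
      refine ⟨j, ?_⟩
      rw [hx0, norm_zero, map_zero]; linarith
    · have hpos : 0 < ‖x‖ := norm_pos_iff.mpr hx0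
      obtain ⟨j, hj⟩ := key (‖x‖⁻¹ • x) (by
        rw [norm_smul, norm_inv, norm_norm, inv_mul_cancel₀ hpos.ne'])
      refine ⟨j, ?_⟩
      rw [map_smul, smul_eq_mul] at hj
      field_simp at hj
      linarith
  · intro x hx
    obtain ⟨δ, hδ, hg⟩ := hgap x hx
    exact ⟨δ, hδ, fun j => hg j.1⟩

/-- Every normed space of dimension at least two that embeds linearly and isometrically into some
`c₀(Γ)` has the Mazur-Ulam property.  The embedding is given by its coordinate functionals. -/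
theorem c0_subspace_mup {Γ : Type u} (hrank : 1 < Module.rank ℝ Z) (φ : Γ → Z →L[ℝ] ℝ)
    (hnorm : ∀ x : Z, IsLUB (Set.range fun γ => |φ γ x|) ‖x‖)
    (hc0 : ∀ x : Z, ∀ ε : ℝ, 0 < ε → {γ | ε ≤ |φ γ x|}.Finite) :
    MazurUlamProperty.{v, w} Z := by
  let Φ : Γ × Bool → Z →L[ℝ] ℝ := fun p => if p.2 then φ p.1 else - φ p.1
  have hΦt : ∀ γ x, Φ (γ, true) x = φ γ x := fun γ x => rfl
  have hΦf : ∀ γ x, Φ (γ, false) x = - φ γ x := fun γ x => rfl
  have hΦabs : ∀ p x, Φ p x ≤ |φ p.1 x| := by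
    rintro ⟨γ, b⟩ x
    cases b
    · rw [hΦf]; exact neg_le_abs _
    · rw [hΦt]; exact le_abs_self _
  have hub : ∀ γ x, |φ γ x| ≤ ‖x‖ := fun γ x => (hnorm x).1 ⟨γ, rfl⟩
  apply poly_fin_mup hrank Φ
  · intro p x
    exact le_trans (hΦabs p x) (hub p.1 x)
  · intro x ε hε
    have : ¬ (‖x‖ - ε ∈ upperBounds (Set.range fun γ => |φ γ x|)) := by
      intro hmem
      have := (hnorm x).2 hmem
      linarith
    rw [mem_upperBounds] at this
    push Not at this
    obtain ⟨_, ⟨γ, rfl⟩, hγ⟩ := this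
    have hγ : ‖x‖ - ε < |φ γ x| := hγ
    rcases le_total 0 (φ γ x) with h | h
    · exact ⟨(γ, true), by rw [hΦt]; rwa [abs_of_nonneg h] at hγ⟩
    · exact ⟨(γ, false), by rw [hΦf]; rwa [abs_of_nonpos h] at hγ⟩
  · intro x hx
    -- the finitely many coordinates of modulus at least one half
    have hfin := hc0 x (1 / 2) (by norm_num)
    let S : Finset Γ := hfin.toFinset
    let vals : Finset ℝ := (S.image fun γ => |φ γ x|).filter (· < 1)
    have hex : ∃ m : ℝ, m < 1 ∧ ∀ t ∈ vals, t ≤ m := by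
      by_cases hne : vals.Nonempty
      · refine ⟨vals.max' hne, ?_, fun t ht => Finset.le_max' _ _ ht⟩
        have := Finset.max'_mem vals hne
        exact (Finset.mem_filter.mp this).2
      · refine ⟨0, by norm_num, ?_⟩
        intro t ht
        exact absurd ⟨t, ht⟩ hne
    obtain ⟨m, hm1, hm⟩ := hex
    refine ⟨min (1 / 2) (1 - m), lt_min (by norm_num) (by linarith), ?_⟩
    intro p
    by_cases h1 : Φ p x = 1
    · left; exact h1
    right
    have hΦle : Φ p x ≤ |φ p.1 x| := hΦabs p x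
    by_cases hbig : 1 / 2 ≤ |φ p.1 x|
    · by_cases habs : |φ p.1 x| < 1
      · have hmem : |φ p.1 x| ∈ vals := by
          apply Finset.mem_filter.mpr
          refine ⟨Finset.mem_image.mpr ⟨p.1, ?_, rfl⟩, habs⟩
          exact hfin.mem_toFinset.mpr hbig
        have := hm _ hmem
        have h2 : min (1 / 2) (1 - m) ≤ 1 - m := min_le_right _ _
        linarith
      · have habs1 : |φ p.1 x| = 1 := le_antisymm (by rw [← hx]; exact hub p.1 x) (not_lt.mp habs)
        -- then `Φ p x = -1`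
        obtain ⟨γ, b⟩ := p
        have h3 : Φ (γ, b) x = 1 ∨ Φ (γ, b) x = -1 := by
          have habs1' : |φ γ x| = 1 := habs1
          rcases (abs_eq (by norm_num : (0 : ℝ) ≤ 1)).mp habs1' with h4 | h4
          · cases b
            · right; rw [hΦf, h4]
            · left; rw [hΦt, h4]
          · cases b
            · left; rw [hΦf, h4]; norm_num
            · right; rw [hΦt, h4]
        rcases h3 with h4 | h4
        · exact absurd h4 h1
        · rw [h4]
          have h2 : min (1 / 2 : ℝ) (1 - m) ≤ 1 / 2 := min_le_left _ _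
          linarith
    · have h2 : min (1 / 2 : ℝ) (1 - m) ≤ 1 / 2 := min_le_left _ _
      rw [not_le] at hbig
      linarith
  · intro x hx
    have hfin := hc0 x 1 one_pos
    apply Set.Finite.subset (hfin.prod (Set.finite_univ (α := Bool)))
    rintro p hp
    have hp' : Φ p x = 1 := hp
    refine ⟨?_, trivial⟩
    change 1 ≤ |φ p.1 x|
    rw [← hp']
    exact hΦabs p x

end Vale.Agent.P084
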