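import Vale.Agent.P084.Poly.Defs

namespace Vale.Agent.P084

universe v

/-- Every two-dimensional subspace of `Z` is polygonal: on the span of any two vectors the norm is
the maximum of finitely many continuous linear functionals. -/
def Polygonal (Z : Type v) [NormedAddCommGroup Z] [NormedSpace ℝ Z] : Prop :=
  ∀ x v : Z, ∃ s : Finset (Z →L[ℝ] ℝ), ∀ a b : ℝ,
    IsGreatest ((fun φ : Z →L[ℝ] ℝ => φ (a • x + b • v)) '' (s : Set (Z →L[ℝ] ℝ)))
      ‖a • x + b • v‖

/-- the norm is linear on a neighbourhood of `x` -/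
def IsFlatPt {Z : Type v} [NormedAddCommGroup Z] [NormedSpace ℝ Z] (x : Z) : Prop :=
  ∃ (φ : Z →L[ℝ] ℝ) (ρ : ℝ), 0 < ρ ∧ Flat φ x ρ

end Vale.Agent.P084
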