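import Vale.Agent.P084.Poly.KDefs
import Vale.Agent.P084.Poly.Basic

namespace Vale.Agent.P084

open Metric Set Filter Topology

universe v

variable {Z : Type v} [NormedAddCommGroup Z] [NormedSpace ℝ Z]

/-- TASK K3a.  `φ (x + s w) = ‖x + s w‖ ≤ ‖x‖ + s ‖w‖ = φ x + s ‖w‖` for small `s > 0`. -/
lemma Flat.le_norm {φ : Z →L[ℝ] ℝ} {x : Z} {ρ : ℝ} (h : Flat φ x ρ) (hρ : 0 < ρ) :
    ∀ z, φ z ≤ ‖z‖ := by
  intro z
  by_cases hz : z = 0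
  · subst hz; simp
  have hzn : 0 < ‖z‖ := norm_pos_iff.mpr hz
  set s : ℝ := ρ / (2 * ‖z‖) with hs
  have hs0 : 0 < s := by positivity
  have hsz : s * ‖z‖ = ρ / 2 := by
    rw [hs]; field_simp
  have h1 : ‖s • z‖ < ρ := by
    rw [norm_smul, Real.norm_of_nonneg hs0.le, hsz]; linarith
  have h2 := h (s • z) h1
  have h3 := norm_add_le x (s • z)
  rw [norm_smul, Real.norm_of_nonneg hs0.le, h.self hρ, h2] at h3
  simp only [map_add, map_smul, smul_eq_mul] at h3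
  have h4 : s * φ z ≤ s * ‖z‖ := by linarith
  exact le_of_mul_le_mul_left h4 hs0

/-- TASK K3b. -/
lemma Flat.smul {φ : Z →L[ℝ] ℝ} {x : Z} {ρ : ℝ} (h : Flat φ x ρ) {c : ℝ} (hc : 0 < c) :
    Flat φ (c • x) (c * ρ) := by
  intro v hv
  have hv' : ‖c⁻¹ • v‖ < ρ := by
    rw [norm_smul, norm_inv, Real.norm_of_nonneg hc.le, inv_mul_lt_iff₀ hc]
    exact hv
  have e : c • x + v = c • (x + c⁻¹ • v) := by
    rw [smul_add, smul_smul, mul_inv_cancel₀ hc.ne', one_smul]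
  rw [e, norm_smul, Real.norm_of_nonneg hc.le, h _ hv', map_smul, smul_eq_mul]

lemma IsFlatPt.smul {x : Z} (h : IsFlatPt x) {c : ℝ} (hc : 0 < c) : IsFlatPt (c • x) := by
  obtain ⟨φ, ρ, hρ, hfl⟩ := h
  exact ⟨φ, c * ρ, mul_pos hc hρ, hfl.smul hc⟩

/-- TASK K3c.  Use `Flat.shift`. -/
lemma isOpen_isFlatPt : IsOpen {x : Z | IsFlatPt x} := by
  rw [Metric.isOpen_iff]
  rintro x ⟨φ, ρ, hρ, hfl⟩
  refine ⟨ρ, hρ, ?_⟩
  intro x' hx'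
  rw [mem_ball, dist_eq_norm] at hx'
  exact ⟨φ, ρ - ‖x' - x‖, by linarith, hfl.shift x'⟩

/-- TASK K3d.  Take `φ` with `‖φ‖ ≤ 1`, `φ p = ‖p‖` (Hahn-Banach, `exists_dual_vector''`).  Then
`‖p + b'‖ + ‖p - b'‖ ≤ 2 ‖p‖ = φ (p + b') + φ (p - b')` forces `‖p + b'‖ = φ (p + b')`. -/
lemma isFlatPt_of_second_diff {p b : Z} {ε : ℝ} (hε : 0 < ε)
    (h : ∀ b' : Z, ‖b' - b‖ < ε → ‖p + b'‖ + ‖p - b'‖ ≤ 2 * ‖p‖) : IsFlatPt (p + b) := by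
  obtain ⟨φ, hφ1, hφp⟩ := exists_dual_vector'' ℝ p
  have hφp' : φ p = ‖p‖ := by simpa using hφp
  have hle : ∀ z, φ z ≤ ‖z‖ := by
    intro z
    calc φ z ≤ ‖φ z‖ := le_abs_self _
      _ ≤ ‖φ‖ * ‖z‖ := φ.le_opNorm z
      _ ≤ 1 * ‖z‖ := by gcongr
      _ = ‖z‖ := one_mul _
  refine ⟨φ, ε, hε, ?_⟩
  intro v hv
  have h1 := h (b + v) (by simpa using hv)
  have h2 := hle (p + (b + v))
  have h3 := hle (p - (b + v))
  have h4 : φ (p + (b + v)) + φ (p - (b + v)) = 2 * ‖p‖ := by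
    rw [map_add, map_sub, hφp']; ring
  rw [add_assoc]
  linarith

end Vale.Agent.P084
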