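import Vale.Agent.P084.Poly.KLine
import Vale.Agent.P084.Poly.KFlat

namespace Vale.Agent.P084

open Metric Set Filter Topology

universe v

variable {Z : Type v} [NormedAddCommGroup Z] [NormedSpace ℝ Z]

/-- the `k`-th open dense set of the Baire argument -/
def kinkSet (Z : Type v) [NormedAddCommGroup Z] [NormedSpace ℝ Z] (k : ℕ) : Set (Z × Z) :=
  {q | 2 * ‖q.1 + (2 * (k : ℝ) + 1) • q.2‖
        < ‖q.1 + (2 * (k : ℝ) + 2) • q.2‖ + ‖q.1 + (2 * (k : ℝ)) • q.2‖ ∨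
      IsFlatPt (q.1 + (2 * (k : ℝ) + 2) • q.2)}

/-- TASK K4a.  Union of two open sets (`isOpen_lt`, preimage of `isOpen_isFlatPt`). -/
lemma isOpen_kinkSet (k : ℕ) : IsOpen (kinkSet Z k) := by
  have h1 : IsOpen {q : Z × Z | 2 * ‖q.1 + (2 * (k : ℝ) + 1) • q.2‖
        < ‖q.1 + (2 * (k : ℝ) + 2) • q.2‖ + ‖q.1 + (2 * (k : ℝ)) • q.2‖} := by
    apply isOpen_lt <;> fun_prop
  have h2 : IsOpen {q : Z × Z | IsFlatPt (q.1 + (2 * (k : ℝ) + 2) • q.2)} := by
    have hc : Continuous (fun q : Z × Z => q.1 + (2 * (k : ℝ) + 2) • q.2) := by fun_prop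
    exact isOpen_isFlatPt.preimage hc
  exact h1.union h2

/-- TASK K4b.  Given `(a, b)` and `ε`: put `p = a + (2k+1) b`.  If `p + b` is a flat point we are
done.  Otherwise by `isFlatPt_of_second_diff` (contrapositive, radius `ε / (2k+2)`) there is `b'`
with `‖b' - b‖ < ε / (2k+2)` and `2 ‖p‖ < ‖p + b'‖ + ‖p - b'‖`; then `(p - (2k+1) b', b')` lies in
`kinkSet Z k` and is `ε`-close to `(a, b)`. -/
lemma dense_kinkSet (k : ℕ) : Dense (kinkSet Z k) := by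
  rw [Metric.dense_iff]
  rintro ⟨a, b⟩ ε hε
  set p : Z := a + (2 * (k : ℝ) + 1) • b with hp
  have hk0 : (0 : ℝ) ≤ (k : ℝ) := Nat.cast_nonneg k
  have hpb : p + b = a + (2 * (k : ℝ) + 2) • b := by
    rw [hp]; module
  by_cases hfl : IsFlatPt (p + b)
  · refine ⟨(a, b), mem_ball_self hε, Or.inr ?_⟩
    rw [hpb] at hfl
    exact hfl
  · have hδ : 0 < ε / (2 * (k : ℝ) + 2) := by positivity
    have hnot : ¬ ∀ b' : Z, ‖b' - b‖ < ε / (2 * (k : ℝ) + 2) →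
        ‖p + b'‖ + ‖p - b'‖ ≤ 2 * ‖p‖ := fun hall => hfl (isFlatPt_of_second_diff hδ hall)
    push Not at hnot
    obtain ⟨b', hb', hlt⟩ := hnot
    have hb'' : (2 * (k : ℝ) + 2) * ‖b' - b‖ < ε := by
      rw [lt_div_iff₀ (by positivity)] at hb'
      linarith
    have hnn : 0 ≤ ‖b' - b‖ := norm_nonneg _
    refine ⟨(p - (2 * (k : ℝ) + 1) • b', b'), ?_, Or.inl ?_⟩
    · rw [mem_ball, Prod.dist_eq, max_lt_iff]
      constructor
      · simp only
        rw [dist_eq_norm]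
        have e1 : p - (2 * (k : ℝ) + 1) • b' - a = (-(2 * (k : ℝ) + 1)) • (b' - b) := by
          rw [hp]; module
        rw [e1, norm_smul, Real.norm_eq_abs, abs_neg, abs_of_nonneg (by positivity)]
        nlinarith
      · simp only
        rw [dist_eq_norm]
        nlinarith
    · simp only
      have e1 : p - (2 * (k : ℝ) + 1) • b' + (2 * (k : ℝ) + 1) • b' = p := by module
      have e2 : p - (2 * (k : ℝ) + 1) • b' + (2 * (k : ℝ) + 2) • b' = p + b' := by module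
      have e3 : p - (2 * (k : ℝ) + 1) • b' + (2 * (k : ℝ)) • b' = p - b' := by module
      rw [e1, e2, e3]
      exact hlt

/-- TASK K4c.  Baire (`dense_iInter_of_isOpen_nat`): `⋂ k, kinkSet Z k` is dense in `Z × Z`.  Given
`p₀` and `r`, take `(a, b)` in it with `‖a‖ < r / 2`, `‖b - p₀‖ < r / 2`.  By `Polygonal.no_kink`
there is `k` where the first alternative fails; so `a + (2k+2) b` is a flat point, and so is
`(2k+2)⁻¹ • (a + (2k+2) b) = b + (2k+2)⁻¹ a`, which is `r`-close to `p₀`. -/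
theorem dense_isFlatPt [CompleteSpace Z] (h : Polygonal Z) : Dense {x : Z | IsFlatPt x} := by
  have hB : Dense (⋂ k, kinkSet Z k) :=
    dense_iInter_of_isOpen_nat (fun k => isOpen_kinkSet k) (fun k => dense_kinkSet k)
  rw [Metric.dense_iff] at hB ⊢
  intro p₀ r hr
  obtain ⟨⟨a, b⟩, hab, hmem⟩ := hB ((0 : Z), p₀) (r / 2) (by positivity)
  rw [mem_ball, Prod.dist_eq, max_lt_iff] at hab
  obtain ⟨ha, hb⟩ := hab
  simp only at ha hb
  rw [dist_eq_norm] at ha hb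
  rw [sub_zero] at ha
  obtain ⟨k, hk⟩ := h.no_kink a b
  have hmk := mem_iInter.1 hmem k
  have hk0 : (0 : ℝ) ≤ (k : ℝ) := Nat.cast_nonneg k
  have hflat : IsFlatPt (a + (2 * (k : ℝ) + 2) • b) := by
    rcases hmk with h1 | h1
    · simp only at h1
      exact absurd hk (not_le.2 h1)
    · exact h1
  have hc : 0 < (2 * (k : ℝ) + 2)⁻¹ := by positivity
  have hflat2 := hflat.smul hc
  have e1 : (2 * (k : ℝ) + 2)⁻¹ • (a + (2 * (k : ℝ) + 2) • b) = b + (2 * (k : ℝ) + 2)⁻¹ • a := by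
    rw [smul_add, smul_smul, inv_mul_cancel₀ (by positivity), one_smul, add_comm]
  rw [e1] at hflat2
  refine ⟨b + (2 * (k : ℝ) + 2)⁻¹ • a, ?_, hflat2⟩
  rw [mem_ball, dist_eq_norm]
  have e2 : b + (2 * (k : ℝ) + 2)⁻¹ • a - p₀ = (b - p₀) + (2 * (k : ℝ) + 2)⁻¹ • a := by abel
  rw [e2]
  have hle : (2 * (k : ℝ) + 2)⁻¹ ≤ 1 := by
    apply inv_le_one_of_one_le₀
    linarith
  calc ‖(b - p₀) + (2 * (k : ℝ) + 2)⁻¹ • a‖ ≤ ‖b - p₀‖ + ‖(2 * (k : ℝ) + 2)⁻¹ • a‖ :=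
        norm_add_le _ _
    _ = ‖b - p₀‖ + (2 * (k : ℝ) + 2)⁻¹ * ‖a‖ := by
        rw [norm_smul, Real.norm_eq_abs, abs_of_pos hc]
    _ ≤ ‖b - p₀‖ + 1 * ‖a‖ := by gcongr
    _ < r := by linarith

end Vale.Agent.P084
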