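import Vale.Agent.P084.Poly.KDense

namespace Vale.Agent.P084

open Metric Set Filter Topology

universe v

variable {Z : Type v} [NormedAddCommGroup Z] [NormedSpace ℝ Z]

/-- TASK K5 (part of Fonf's theorem).  In a polygonal Banach space every unit vector lies on a facet
with nonempty interior.
Sketch: `A n = {v | 2 ‖x₀ + (1/(2(n+1))) v‖ = 1 + ‖x₀ + (1/(n+1)) v‖}` is closed and
`⋃ n, A n = univ` by `Polygonal.seg`.  By Baire (`nonempty_interior_of_iUnion_of_closed`) some `A n`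
contains a ball `B(v₀, r)`.  With `τ = 1/(2(n+1))` the ball `B(x₀ + τ v₀, τ r)` contains a flat point
`c'` (`dense_isFlatPt`), say `Flat φ c' ρ'`.  Write `c' = x₀ + τ v` with `v ∈ B(v₀, r) ⊆ A n`.  Then
`2 φ c' = 2 ‖c'‖ = 1 + ‖x₀ + 2 τ v‖ ≥ 1 + φ (x₀ + 2 τ v)` and `2 φ c' = φ x₀ + φ (x₀ + 2 τ v)`, so
`φ x₀ ≥ 1`; also `φ x₀ ≤ 1` by `Flat.le_norm`.  Finally `‖c'‖ ≥ 1/2 > 0`; normalise with
`Flat.smul`. -/
theorem exists_facet [CompleteSpace Z] (h : Polygonal Z) {x₀ : Z} (hx₀ : ‖x₀‖ = 1) :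
    ∃ (φ : Z →L[ℝ] ℝ) (c : Z) (ρ : ℝ), 0 < ρ ∧ ‖c‖ = 1 ∧ Flat φ c ρ ∧ φ x₀ = 1 := by
  classical
  let A : ℕ → Set Z := fun n =>
    {v | 2 * ‖x₀ + (1 / (2 * ((n : ℝ) + 1))) • v‖ = 1 + ‖x₀ + (1 / ((n : ℝ) + 1)) • v‖}
  have hclosed : ∀ n, IsClosed (A n) := by
    intro n
    apply isClosed_eq
    · fun_prop
    · fun_prop
  have hunion : ⋃ n, A n = univ := by
    apply eq_univ_of_forall
    intro v
    obtain ⟨ε, φ, hε, hφ⟩ := h.seg x₀ v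
    obtain ⟨n, hn⟩ := exists_nat_one_div_lt hε
    rw [mem_iUnion]
    refine ⟨n, ?_⟩
    have hn1 : (0 : ℝ) < (n : ℝ) + 1 := by positivity
    have h0 := hφ 0 le_rfl hε.le
    rw [zero_smul, add_zero, hx₀] at h0
    have ha : (0 : ℝ) ≤ 1 / (2 * ((n : ℝ) + 1)) := by positivity
    have hhalf : 1 / (2 * ((n : ℝ) + 1)) = (1 / ((n : ℝ) + 1)) / 2 := by
      field_simp
    have hb0 : (0 : ℝ) < 1 / ((n : ℝ) + 1) := by positivity
    have ha' : 1 / (2 * ((n : ℝ) + 1)) ≤ ε := by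
      rw [hhalf]; linarith
    have h1 := hφ _ ha ha'
    have h2 := hφ _ hb0.le hn.le
    change 2 * ‖x₀ + (1 / (2 * ((n : ℝ) + 1))) • v‖ = 1 + ‖x₀ + (1 / ((n : ℝ) + 1)) • v‖
    rw [h1, h2]
    simp only [map_add, map_smul, smul_eq_mul]
    rw [← h0, hhalf]
    ring
  obtain ⟨n, v₀, hv₀⟩ := nonempty_interior_of_iUnion_of_closed hclosed hunion
  rw [mem_interior_iff_mem_nhds, Metric.mem_nhds_iff] at hv₀
  obtain ⟨r, hr, hball⟩ := hv₀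
  have hn1 : (0 : ℝ) < (n : ℝ) + 1 := by positivity
  set τ : ℝ := 1 / (2 * ((n : ℝ) + 1)) with hτ
  have hτ0 : 0 < τ := by positivity
  have h2τ : 1 / ((n : ℝ) + 1) = 2 * τ := by
    rw [hτ]; field_simp
  obtain ⟨c', hc'flat, hc'dist⟩ :=
    (dense_isFlatPt h).exists_dist_lt (x₀ + τ • v₀) (mul_pos hτ0 hr)
  obtain ⟨φ, ρ', hρ', hfl⟩ := hc'flat
  set v : Z := τ⁻¹ • (c' - x₀) with hv
  have hc'v : c' = x₀ + τ • v := by
    rw [hv, smul_smul, mul_inv_cancel₀ hτ0.ne', one_smul]; abel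
  have hvball : v ∈ ball v₀ r := by
    rw [mem_ball, dist_eq_norm]
    have e : v - v₀ = τ⁻¹ • (c' - (x₀ + τ • v₀)) := by
      rw [hv, smul_sub, smul_sub, smul_add, smul_smul, inv_mul_cancel₀ hτ0.ne', one_smul]
      abel
    rw [e, norm_smul, norm_inv, Real.norm_of_nonneg hτ0.le, inv_mul_lt_iff₀ hτ0]
    rw [dist_comm, dist_eq_norm] at hc'dist
    exact hc'dist
  have hvA : 2 * ‖x₀ + τ • v‖ = 1 + ‖x₀ + (1 / ((n : ℝ) + 1)) • v‖ := hball hvball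
  rw [h2τ, ← hc'v] at hvA
  have hle := hfl.le_norm hρ'
  have hself := hfl.self hρ'
  have h3 := hle (x₀ + (2 * τ) • v)
  have h4 : 2 * φ c' = φ x₀ + φ (x₀ + (2 * τ) • v) := by
    rw [hc'v]
    simp only [map_add, map_smul, smul_eq_mul]
    ring
  have h5 := hle x₀
  rw [hx₀] at h5
  have hφx₀ : φ x₀ = 1 := by
    apply le_antisymm h5
    rw [hself] at hvA
    linarith
  have hc'pos : 0 < ‖c'‖ := by
    have := norm_nonneg (x₀ + (2 * τ) • v)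
    linarith
  refine ⟨φ, ‖c'‖⁻¹ • c', ‖c'‖⁻¹ * ρ', by positivity, ?_, hfl.smul (by positivity), hφx₀⟩
  rw [norm_smul, norm_inv, norm_norm, inv_mul_cancel₀ hc'pos.ne']

end Vale.Agent.P084
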