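import Vale.Agent.P084.Poly.KDefs

namespace Vale.Agent.P084

open Metric Set Filter Topology

universe u v

section fd

variable {E : Type u} [NormedAddCommGroup E] [NormedSpace ℝ E] [FiniteDimensional ℝ E]

omit [FiniteDimensional ℝ E] in
theorem norm_le_one_of_hull (s : Finset E)
    (hs : convexHull ℝ (s : Set E) = closedBall 0 1) (g : E →L[ℝ] ℝ)
    (hg : ∀ p ∈ s, |g p| ≤ 1) : ‖g‖ ≤ 1 := by
  refine ContinuousLinearMap.opNorm_le_of_unit_norm zero_le_one fun x hx => ?_
  have hx' : x ∈ convexHull ℝ (s : Set E) := by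
    rw [hs]; simp [hx]
  have h1 : convexHull ℝ (s : Set E) ⊆ {y | |g y| ≤ 1} := by
    refine convexHull_min (fun p hp => hg p hp) ?_
    have : {y : E | |g y| ≤ 1} = {y | g y ≤ 1} ∩ {y | -1 ≤ g y} := by
      ext y; simp only [mem_ofPred_eq, mem_inter_iff, abs_le]; tauto
    rw [this]
    exact (convex_halfSpace_le g.toLinearMap.isLinear 1).inter
      (convex_halfSpace_ge g.toLinearMap.isLinear (-1))
  exact h1 hx'

theorem span_eq_top_of_extreme (s : Finset E)
    (hs : convexHull ℝ (s : Set E) = closedBall 0 1) (f : E →L[ℝ] ℝ)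
    (hf : f ∈ extremePoints ℝ (closedBall (0 : E →L[ℝ] ℝ) 1)) :
    Submodule.span ℝ {p : E | p ∈ s ∧ |f p| = 1} = ⊤ := by
  by_contra hne
  obtain ⟨g0, hg0, hker⟩ := Submodule.exists_le_ker_of_lt_top _ (lt_top_iff_ne_top.2 hne)
  set g : E →L[ℝ] ℝ := LinearMap.toContinuousLinearMap g0 with hgdef
  have hgne : g ≠ 0 := by
    intro h
    apply hg0
    ext y
    have : g y = 0 := by rw [h]; rfl
    simpa [hgdef] using this
  have hgA : ∀ p ∈ s, |f p| = 1 → g p = 0 := by
    intro p hp h1
    have : p ∈ LinearMap.ker g0 := hker (Submodule.subset_span ⟨hp, h1⟩)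
    simpa [hgdef] using this
  have hf1 : ‖f‖ ≤ 1 := by simpa using hf.1
  have hfs : ∀ p ∈ s, |f p| ≤ 1 := by
    intro p hp
    have hp1 : ‖p‖ ≤ 1 := by
      have : p ∈ closedBall (0 : E) 1 := hs ▸ subset_convexHull ℝ _ hp
      simpa using this
    calc |f p| = ‖f p‖ := rfl
      _ ≤ ‖f‖ * ‖p‖ := f.le_opNorm p
      _ ≤ 1 * 1 := by gcongr
      _ = 1 := one_mul _
  have hev : ∀ p ∈ s, ∀ᶠ ε in 𝓝 (0 : ℝ), |f p| + ε * |g p| ≤ 1 := by
    intro p hp
    rcases (hfs p hp).eq_or_lt with h1 | h1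
    · refine Eventually.of_forall fun ε => ?_
      rw [hgA p hp h1, h1]; simp
    · have ht : Tendsto (fun ε : ℝ => |f p| + ε * |g p|) (𝓝 0) (𝓝 (|f p| + 0 * |g p|)) := by
        apply Continuous.tendsto
        fun_prop
      rw [zero_mul, add_zero] at ht
      exact (ht.eventually (Iio_mem_nhds h1)).mono fun ε hε => le_of_lt hε
  have hall : ∀ᶠ ε in 𝓝 (0 : ℝ), ∀ p ∈ s, |f p| + ε * |g p| ≤ 1 :=
    (Filter.eventually_all_finset s).2 hev
  obtain ⟨ε, hε, hεpos⟩ :=
    ((hall.filter_mono (nhdsWithin_le_nhds (s := Ioi (0 : ℝ)))).and self_mem_nhdsWithin).exists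
  have hεpos' : 0 < ε := hεpos
  have hplus : f + ε • g ∈ closedBall (0 : E →L[ℝ] ℝ) 1 := by
    have : ‖f + ε • g‖ ≤ 1 := by
      refine norm_le_one_of_hull s hs _ fun p hp => ?_
      calc |(f + ε • g) p| = |f p + ε * g p| := by simp
        _ ≤ |f p| + |ε * g p| := abs_add_le _ _
        _ = |f p| + ε * |g p| := by rw [abs_mul, abs_of_pos hεpos']
        _ ≤ 1 := hε p hp
    simpa using this
  have hminus : f - ε • g ∈ closedBall (0 : E →L[ℝ] ℝ) 1 := by
    have : ‖f - ε • g‖ ≤ 1 := by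
      refine norm_le_one_of_hull s hs _ fun p hp => ?_
      calc |(f - ε • g) p| = |f p - ε * g p| := by simp
        _ ≤ |f p| + |ε * g p| := abs_sub _ _
        _ = |f p| + ε * |g p| := by rw [abs_mul, abs_of_pos hεpos']
        _ ≤ 1 := hε p hp
    simpa using this
  have hseg : f ∈ openSegment ℝ (f + ε • g) (f - ε • g) := by
    refine ⟨1 / 2, 1 / 2, by norm_num, by norm_num, by norm_num, ?_⟩
    ext y
    simp
    ring
  have := hf.2 hplus hminus hseg
  apply hgne
  have h2 : ε • g = 0 := by simpa using this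
  exact (smul_eq_zero.1 h2).resolve_left hεpos'.ne'

/-- TASK K9a.  If the unit ball of `E` is the convex hull of the finite set `s`, then the unit ball
of the dual has only finitely many extreme points.
Sketch: let `f` be extreme and `A = {p ∈ s | |f p| = 1}`.  If `span A ≠ ⊤` there is `g ≠ 0` vanishing
on `A` (`Submodule.exists_le_ker_of_lt_top`, `LinearMap.toContinuousLinearMap`); for small `ε > 0`
we have `|f p| + ε |g p| ≤ 1` for all `p ∈ s`, hence `‖f ± ε g‖ ≤ 1` (a linear functional on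
`convexHull s` is bounded by its maximum on `s`), contradicting extremality.  So `f` is determined by
the pair of finsets `({p ∈ s | f p = 1}, {p ∈ s | f p = -1})`: an injection into a finite type. -/
theorem finite_extremePoints_dual_ball (s : Finset E)
    (hs : convexHull ℝ (s : Set E) = closedBall 0 1) :
    (extremePoints ℝ (closedBall (0 : E →L[ℝ] ℝ) 1)).Finite := by
  classical
  set F : (E →L[ℝ] ℝ) → Finset E × Finset E :=
    fun f => (s.filter fun p => f p = 1, s.filter fun p => f p = -1) with hF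
  refine Set.Finite.of_finite_image (f := F) ?_ ?_
  · refine (Finset.finite_toSet (s.powerset ×ˢ s.powerset)).subset ?_
    rintro _ ⟨f, _, rfl⟩
    have h1 : (s.filter fun p => f p = 1) ∈ s.powerset :=
      Finset.mem_powerset.2 (Finset.filter_subset _ _)
    have h2 : (s.filter fun p => f p = -1) ∈ s.powerset :=
      Finset.mem_powerset.2 (Finset.filter_subset _ _)
    exact Finset.mem_coe.2 (Finset.mem_product.2 ⟨h1, h2⟩)
  · intro f hf f' hf' hff
    have e1 : (s.filter fun p => f p = 1) = s.filter fun p => f' p = 1 := congrArg Prod.fst hff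
    have e2 : (s.filter fun p => f p = -1) = s.filter fun p => f' p = -1 := congrArg Prod.snd hff
    have hspan := span_eq_top_of_extreme s hs f hf
    have : f.toLinearMap = f'.toLinearMap := by
      refine LinearMap.ext_on hspan ?_
      rintro p ⟨hp, h1⟩
      rcases (abs_eq zero_le_one).1 h1 with h | h
      · have : p ∈ s.filter fun p => f' p = 1 := e1 ▸ (Finset.mem_filter.2 ⟨hp, h⟩)
        simp [h, (Finset.mem_filter.1 this).2]
      · have : p ∈ s.filter fun p => f' p = -1 := e2 ▸ (Finset.mem_filter.2 ⟨hp, h⟩)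
        simp [h, (Finset.mem_filter.1 this).2]
    exact ContinuousLinearMap.coe_injective this

/-- TASK K9b.  Every `x` is normed by an extreme point of the dual ball.
Sketch: `K = closedBall 0 1` in the dual is compact (finite dimension, `isCompact_closedBall`).
`F = {f ∈ K | f x = ‖x‖}` is nonempty (`exists_dual_vector''`), compact and an extreme subset of `K`;
`IsCompact.extremePoints_nonempty` and `IsExtreme.extremePoints_subset_extremePoints`. -/
theorem exists_extremePoint_norming (x : E) :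
    ∃ f ∈ extremePoints ℝ (closedBall (0 : E →L[ℝ] ℝ) 1), f x = ‖x‖ := by
  have hle : ∀ g ∈ closedBall (0 : E →L[ℝ] ℝ) 1, g x ≤ ‖x‖ := by
    intro g hg
    have h1 : ‖g‖ ≤ 1 := by simpa using hg
    calc g x ≤ ‖g x‖ := le_abs_self _
      _ ≤ ‖g‖ * ‖x‖ := g.le_opNorm x
      _ ≤ 1 * ‖x‖ := by gcongr
      _ = ‖x‖ := one_mul _
  have hK : IsCompact (closedBall (0 : E →L[ℝ] ℝ) 1) := isCompact_closedBall _ _
  have hFc : IsCompact {f ∈ closedBall (0 : E →L[ℝ] ℝ) 1 | f x = ‖x‖} := by
    refine hK.inter_right ?_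
    exact isClosed_eq (ContinuousLinearMap.apply ℝ ℝ x).continuous continuous_const
  have hFn : {f ∈ closedBall (0 : E →L[ℝ] ℝ) 1 | f x = ‖x‖}.Nonempty := by
    obtain ⟨g, hg, hgx⟩ := exists_dual_vector'' ℝ x
    exact ⟨g, by simpa using hg, by simpa using hgx⟩
  have hext : IsExtreme ℝ (closedBall (0 : E →L[ℝ] ℝ) 1)
      {f ∈ closedBall (0 : E →L[ℝ] ℝ) 1 | f x = ‖x‖} := by
    refine ⟨fun f hf => hf.1, ?_⟩
    rintro f₁ h₁ f₂ h₂ f ⟨_, hfx⟩ ⟨a, b, ha, hb, hab, rfl⟩
    refine ⟨h₁, ?_⟩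
    have e1 := hle f₁ h₁
    have e2 := hle f₂ h₂
    have e3 : a * f₁ x + b * f₂ x = ‖x‖ := by simpa using hfx
    by_contra hne
    have hlt : f₁ x < ‖x‖ := lt_of_le_of_ne e1 hne
    have hb' : b = 1 - a := by linarith
    subst hb'
    nlinarith
  obtain ⟨f, hf⟩ := hFc.extremePoints_nonempty hFn
  exact ⟨f, hext.extremePoints_subset_extremePoints hf, hf.1.2⟩

theorem exists_finset_of_hull (s : Finset E) (hs : convexHull ℝ (s : Set E) = closedBall 0 1) :
    ∃ S : Finset (E →L[ℝ] ℝ), ∀ x : E,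
      IsGreatest ((fun φ : E →L[ℝ] ℝ => φ x) '' (S : Set (E →L[ℝ] ℝ))) ‖x‖ := by
  refine ⟨(finite_extremePoints_dual_ball s hs).toFinset, fun x => ⟨?_, ?_⟩⟩
  · obtain ⟨f, hf, hfx⟩ := exists_extremePoint_norming x
    exact ⟨f, by simpa using hf, hfx⟩
  · rintro _ ⟨f, hf, rfl⟩
    have hf' : f ∈ extremePoints ℝ (closedBall (0 : E →L[ℝ] ℝ) 1) := by simpa using hf
    have h1 : ‖f‖ ≤ 1 := by simpa using hf'.1
    calc f x ≤ ‖f x‖ := le_abs_self _
      _ ≤ ‖f‖ * ‖x‖ := f.le_opNorm x
      _ ≤ 1 * ‖x‖ := by gcongr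
      _ = ‖x‖ := one_mul _

end fd

variable {Z : Type v} [NormedAddCommGroup Z] [NormedSpace ℝ Z]

/-- TASK K9c.  Klee's definition (the unit ball of every finite-dimensional subspace is a polytope)
implies `Polygonal`.
Sketch: `E = span {x, v}`; `s ⊆ E`; pull `s` back to a finset of `E`; its convex hull in `E` is the
unit ball of `E` (apply `E.subtype`, which is injective, and `LinearMap.image_convexHull`);
`exists_finset_of_hull` gives `S`; extend every functional of `S` to `Z`
(`Real.exists_extension_norm_eq`) and take the image finset. -/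
theorem polygonal_of_hull
    (h : ∀ E : Submodule ℝ Z, FiniteDimensional ℝ E →
      ∃ s : Finset Z, convexHull ℝ (s : Set Z) = closedBall 0 1 ∩ (E : Set Z)) :
    Polygonal Z := by
  classical
  intro x v
  set E : Submodule ℝ Z := Submodule.span ℝ {x, v} with hE
  have hfd : FiniteDimensional ℝ E :=
    FiniteDimensional.span_of_finite ℝ (by simp)
  obtain ⟨s, hs⟩ := h E hfd
  have hsE : ∀ z ∈ s, z ∈ E := by
    intro z hz
    have : z ∈ closedBall (0 : Z) 1 ∩ (E : Set Z) := hs ▸ subset_convexHull ℝ _ hz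
    exact this.2
  set s' : Finset E := s.subtype (fun z => z ∈ E) with hs'
  have himg : E.subtype '' (s' : Set E) = (s : Set Z) := by
    ext z
    constructor
    · rintro ⟨y, hy, rfl⟩
      have : y ∈ s' := hy
      simpa [hs'] using this
    · intro hz
      refine ⟨⟨z, hsE z hz⟩, ?_, rfl⟩
      have : (⟨z, hsE z hz⟩ : E) ∈ s' := by
        rw [hs', Finset.mem_subtype]; exact hz
      exact this
  have hhull : convexHull ℝ (s' : Set E) = closedBall 0 1 := by
    apply Set.image_injective.2 (Subtype.coe_injective (p := fun z => z ∈ E))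
    have e1 : E.subtype '' convexHull ℝ (s' : Set E) = convexHull ℝ (E.subtype '' (s' : Set E)) :=
      LinearMap.image_convexHull _ _
    have e2 : (Subtype.val : E → Z) '' convexHull ℝ (s' : Set E)
        = closedBall 0 1 ∩ (E : Set Z) := by
      rw [← hs, ← himg, ← e1]; rfl
    rw [e2]
    ext z
    constructor
    · rintro ⟨hz1, hz2⟩
      refine ⟨⟨z, hz2⟩, ?_, rfl⟩
      simpa using hz1
    · rintro ⟨y, hy, rfl⟩
      refine ⟨?_, y.2⟩
      simpa using hy
  obtain ⟨S, hS⟩ := exists_finset_of_hull s' hhull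
  have hextn : ∀ φ : E →L[ℝ] ℝ, ∃ g : Z →L[ℝ] ℝ, ∀ y : E, g y = φ y := by
    intro φ
    obtain ⟨g, hg, _⟩ := exists_extension_norm_eq E φ
    exact ⟨g, hg⟩
  choose ext hext using hextn
  refine ⟨S.image ext, fun a b => ?_⟩
  have hmem : a • x + b • v ∈ E :=
    E.add_mem (E.smul_mem _ (Submodule.subset_span (by simp)))
      (E.smul_mem _ (Submodule.subset_span (by simp)))
  have hy := hS ⟨a • x + b • v, hmem⟩
  have hset : (fun φ : Z →L[ℝ] ℝ => φ (a • x + b • v)) '' ((S.image ext : Finset _) : Set (Z →L[ℝ] ℝ))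
      = (fun φ : E →L[ℝ] ℝ => φ ⟨a • x + b • v, hmem⟩) '' (S : Set (E →L[ℝ] ℝ)) := by
    rw [Finset.coe_image, Set.image_image]
    refine Set.image_congr fun φ _ => ?_
    exact hext φ ⟨a • x + b • v, hmem⟩
  rw [hset]
  exact hy

end Vale.Agent.P084
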