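import Vale.Agent.P084.Defs

namespace Vale.Agent.P084

open Metric Set

universe v w

variable {Z : Type v} [NormedAddCommGroup Z] [NormedSpace ℝ Z]

/-- The line map `t ↦ t • e` as a linear equivalence, when `e` spans. -/
private noncomputable def lineEquiv {W : Type*} [NormedAddCommGroup W] [NormedSpace ℝ W] (e : W)
    (he : ‖e‖ = 1) (hsp : ∀ z : W, ∃ r : ℝ, r • e = z) : ℝ ≃ₗ[ℝ] W :=
  LinearEquiv.ofBijective (LinearMap.toSpanSingleton ℝ W e) (by
    constructor
    · intro a b hab
      simp only [LinearMap.toSpanSingleton_apply] at hab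
      have he0 : e ≠ 0 := by
        intro h0
        rw [h0, norm_zero] at he
        exact zero_ne_one he
      exact smul_left_injective ℝ he0 hab
    · intro z
      obtain ⟨r, hr⟩ := hsp z
      exact ⟨r, by simpa using hr⟩)

private theorem lineEquiv_apply {W : Type*} [NormedAddCommGroup W] [NormedSpace ℝ W] (e : W)
    (he : ‖e‖ = 1) (hsp : ∀ z : W, ∃ r : ℝ, r • e = z) (t : ℝ) :
    lineEquiv e he hsp t = t • e := rfl

/-- TASK K8.  Spaces of dimension `0` and `1` have the Mazur-Ulam property (trivially).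
Dimension 0: the sphere of `Z` is empty, so (surjectivity) the sphere of `Y` is empty, so `Y` is
trivial.  Dimension 1: `Z = ℝ e` with `‖e‖ = 1`, the sphere is `{e, -e}`; the sphere of `Y` is
`{f e, f (-e)}` and contains `- f e ≠ f e`, so `f (-e) = - f e`, every `y ≠ 0` is a multiple of
`f e`, and `T (t e) = t f e` works. -/
theorem mup_of_rank_le_one (h : Module.rank ℝ Z ≤ 1) : MazurUlamProperty.{v, w} Z := by
  intro Y _ _ f hf hs
  obtain ⟨v₀, hv₀⟩ := rank_le_one_iff.mp h
  by_cases h0 : v₀ = 0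
  · have hZ : ∀ z : Z, z = 0 := by
      intro z
      obtain ⟨r, hr⟩ := hv₀ z
      rw [← hr, h0, smul_zero]
    have hY : ∀ y : Y, y = 0 := by
      intro y
      by_contra hy
      have hn : ‖y‖ ≠ 0 := norm_ne_zero_iff.mpr hy
      have hmem : ‖y‖⁻¹ • y ∈ sphere (0 : Y) 1 := by
        rw [mem_sphere_zero_iff_norm, norm_smul, norm_inv, norm_norm, inv_mul_cancel₀ hn]
      obtain ⟨x, hx⟩ := hs ⟨_, hmem⟩
      have h1 : ‖(x : Z)‖ = 1 := mem_sphere_zero_iff_norm.mp x.2
      rw [hZ x, norm_zero] at h1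
      exact zero_ne_one h1
    have : Subsingleton Z := ⟨fun a b => by rw [hZ a, hZ b]⟩
    have : Subsingleton Y := ⟨fun a b => by rw [hY a, hY b]⟩
    refine ⟨⟨LinearEquiv.ofSubsingleton Z Y, fun z => ?_⟩, fun x => ?_⟩
    · rw [hZ z, hY (LinearEquiv.ofSubsingleton Z Y 0), norm_zero, norm_zero]
    · exact Subsingleton.elim _ _
  · have hn0 : ‖v₀‖ ≠ 0 := norm_ne_zero_iff.mpr h0
    set e : Z := ‖v₀‖⁻¹ • v₀ with he_def
    have he : ‖e‖ = 1 := by
      rw [he_def, norm_smul, norm_inv, norm_norm, inv_mul_cancel₀ hn0]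
    have hsp : ∀ z : Z, ∃ r : ℝ, r • e = z := by
      intro z
      obtain ⟨r, hr⟩ := hv₀ z
      refine ⟨r * ‖v₀‖, ?_⟩
      rw [he_def, smul_smul, mul_assoc, mul_inv_cancel₀ hn0, mul_one, hr]
    -- points of the sphere of `Z`
    have hsphere : ∀ x : sphere (0 : Z) 1, (x : Z) = e ∨ (x : Z) = -e := by
      intro x
      obtain ⟨r, hr⟩ := hsp x
      have h1 : ‖(x : Z)‖ = 1 := mem_sphere_zero_iff_norm.mp x.2
      rw [← hr, norm_smul, he, mul_one, Real.norm_eq_abs] at h1
      rcases (abs_eq (zero_le_one)).mp h1 with h2 | h2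
      · left; rw [← hr, h2, one_smul]
      · right; rw [← hr, h2, neg_smul, one_smul]
    have hemem : e ∈ sphere (0 : Z) 1 := mem_sphere_zero_iff_norm.mpr he
    have hnemem : -e ∈ sphere (0 : Z) 1 := by
      rw [mem_sphere_zero_iff_norm, norm_neg, he]
    set y0 : Y := ((f ⟨e, hemem⟩ : sphere (0 : Y) 1) : Y) with hy0_def
    have hy0 : ‖y0‖ = 1 := mem_sphere_zero_iff_norm.mp (f ⟨e, hemem⟩).2
    have hy0ne : y0 ≠ 0 := by
      intro h00
      rw [h00, norm_zero] at hy0
      exact zero_ne_one hy0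
    have hnegmem : -y0 ∈ sphere (0 : Y) 1 := by
      rw [mem_sphere_zero_iff_norm, norm_neg, hy0]
    have hfneg : ((f ⟨-e, hnemem⟩ : sphere (0 : Y) 1) : Y) = -y0 := by
      obtain ⟨x, hx⟩ := hs ⟨-y0, hnegmem⟩
      rcases hsphere x with h1 | h1
      · exfalso
        have hxe : x = ⟨e, hemem⟩ := Subtype.ext h1
        rw [hxe] at hx
        have h2 : y0 = -y0 := congrArg Subtype.val hx
        have h3 : y0 = 0 := by
          have h4 : (2 : ℝ) • y0 = 0 := by
            rw [two_smul]
            nth_rewrite 2 [h2]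
            exact add_neg_cancel y0
          rcases smul_eq_zero.mp h4 with h5 | h5
          · norm_num at h5
          · exact h5
        exact hy0ne h3
      · have hxe : x = ⟨-e, hnemem⟩ := Subtype.ext h1
        rw [hxe] at hx
        exact congrArg Subtype.val hx
    have hspY : ∀ y : Y, ∃ r : ℝ, r • y0 = y := by
      intro y
      by_cases hy : y = 0
      · exact ⟨0, by rw [zero_smul, hy]⟩
      · have hn : ‖y‖ ≠ 0 := norm_ne_zero_iff.mpr hy
        have hmem : ‖y‖⁻¹ • y ∈ sphere (0 : Y) 1 := by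
          rw [mem_sphere_zero_iff_norm, norm_smul, norm_inv, norm_norm, inv_mul_cancel₀ hn]
        obtain ⟨x, hx⟩ := hs ⟨_, hmem⟩
        have hx' : ((f x : sphere (0 : Y) 1) : Y) = ‖y‖⁻¹ • y := congrArg Subtype.val hx
        have hyy : y = ‖y‖ • (‖y‖⁻¹ • y) := by
          rw [smul_smul, mul_inv_cancel₀ hn, one_smul]
        rcases hsphere x with h1 | h1
        · have hxe : x = ⟨e, hemem⟩ := Subtype.ext h1
          rw [hxe] at hx'
          refine ⟨‖y‖, ?_⟩
          rw [hyy, ← hx', norm_smul, norm_norm]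
          simp [hy0_def]
        · have hxe : x = ⟨-e, hnemem⟩ := Subtype.ext h1
          rw [hxe, hfneg] at hx'
          refine ⟨-‖y‖, ?_⟩
          conv_rhs => rw [hyy, ← hx']
          rw [neg_smul, smul_neg]
    refine ⟨⟨(lineEquiv e he hsp).symm.trans (lineEquiv y0 hy0 hspY), fun z => ?_⟩, fun x => ?_⟩
    · obtain ⟨t, rfl⟩ := (lineEquiv e he hsp).surjective z
      rw [LinearEquiv.trans_apply, LinearEquiv.symm_apply_apply, lineEquiv_apply, lineEquiv_apply,
        norm_smul, norm_smul, he, hy0]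
    · have key : ∀ t : ℝ, ((lineEquiv e he hsp).symm.trans (lineEquiv y0 hy0 hspY)) (t • e)
          = t • y0 := by
        intro t
        rw [← lineEquiv_apply e he hsp t, LinearEquiv.trans_apply, LinearEquiv.symm_apply_apply,
          lineEquiv_apply]
      change ((lineEquiv e he hsp).symm.trans (lineEquiv y0 hy0 hspY)) (x : Z) = f x
      rcases hsphere x with h1 | h1
      · have hxe : x = ⟨e, hemem⟩ := Subtype.ext h1
        have := key 1
        rw [one_smul, one_smul] at this
        rw [h1, this, hxe]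
      · have hxe : x = ⟨-e, hnemem⟩ := Subtype.ext h1
        have := key (-1)
        rw [neg_smul, neg_smul, one_smul, one_smul] at this
        rw [h1, this, hxe, hfneg]

end Vale.Agent.P084
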