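import Vale.Agent.P084.Poly.KMain
import Vale.Agent.P084.Poly.KFacet
import Vale.Agent.P084.Poly.KLow
import Vale.Agent.P084.Poly.KHull

namespace Vale.Agent.P084

open Metric Set

universe v w

variable {Z : Type v} [NormedAddCommGroup Z] [NormedSpace ℝ Z]

/-- the facets with nonempty interior of a polygonal Banach space -/
noncomputable def Polygonal.facetFamily [CompleteSpace Z] (h : Polygonal Z) :
    FacetFamily {φ : Z →L[ℝ] ℝ // ∃ (c : Z) (ρ : ℝ), 0 < ρ ∧ ‖c‖ = 1 ∧ Flat φ c ρ} Z where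
  φ := fun i => i.1
  le := fun i => by
    obtain ⟨c, ρ, hρ, _, hfl⟩ := i.2
    exact hfl.le_norm hρ
  cover := fun x hx => by
    obtain ⟨φ, c, ρ, hρ, hc, hfl, hφx⟩ := exists_facet h hx
    exact ⟨⟨φ, c, ρ, hρ, hc, hfl⟩, hφx⟩
  center := fun i => i.2
  loc := fun x v => by
    obtain ⟨ε, hε, hl⟩ := h.local x v
    refine ⟨ε, hε, fun i => hl i.1 ?_⟩
    obtain ⟨c, ρ, hρ, _, hfl⟩ := i.2
    exact hfl.le_norm hρ

/-- Every Banach space all of whose two-dimensional subspaces are polygonal has the Mazur-Ulam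
property. -/
theorem polygonal_mup [CompleteSpace Z] (h : Polygonal Z) : MazurUlamProperty.{v, w} Z := by
  by_cases hrank : 1 < Module.rank ℝ Z
  · intro Y _ _ f hf hs
    exact equiv_of_raw (fun g hg => facet_raw h.facetFamily hrank hg) f hf hs
  · exact mup_of_rank_le_one (not_lt.mp hrank)

/-- Every polyhedral Banach space (Klee) has the Mazur-Ulam property. -/
theorem klee_mup [CompleteSpace Z]
    (h : ∀ E : Submodule ℝ Z, FiniteDimensional ℝ E →
      ∃ s : Finset Z, convexHull ℝ (s : Set Z) = closedBall 0 1 ∩ (E : Set Z)) :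
    MazurUlamProperty.{v, w} Z :=
  polygonal_mup (polygonal_of_hull h)

end Vale.Agent.P084
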