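import Vale.Agent.P084.Poly.KDefs

namespace Vale.Agent.P084

open Metric Set Filter Topology

universe v

variable {Z : Type v} [NormedAddCommGroup Z] [NormedSpace ℝ Z]

/-- convexity of the norm: a functional norming `p` and `q` dominates the norm on their cone -/
lemma norm_le_of_active (φ : Z →L[ℝ] ℝ) {p q : Z} (hp : φ p = ‖p‖) (hq : φ q = ‖q‖) {a b : ℝ}
    (ha : 0 ≤ a) (hb : 0 ≤ b) : ‖a • p + b • q‖ ≤ φ (a • p + b • q) := by
  calc ‖a • p + b • q‖ ≤ ‖a • p‖ + ‖b • q‖ := norm_add_le _ _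
    _ = a * ‖p‖ + b * ‖q‖ := by
        rw [norm_smul, norm_smul, Real.norm_of_nonneg ha, Real.norm_of_nonneg hb]
    _ = φ (a • p + b • q) := by simp [hp, hq]

/-- the finite set of functionals along the line `x + t v` -/
lemma Polygonal.line (h : Polygonal Z) (x v : Z) :
    ∃ s : Finset (Z →L[ℝ] ℝ), ∀ t : ℝ, (∃ φ ∈ s, φ (x + t • v) = ‖x + t • v‖) ∧
      ∀ φ ∈ s, φ (x + t • v) ≤ ‖x + t • v‖ := by
  obtain ⟨s, hs⟩ := h x v
  refine ⟨s, fun t => ?_⟩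
  have := hs 1 t
  rw [one_smul] at this
  obtain ⟨⟨φ, hφ, h1⟩, h2⟩ := this
  exact ⟨⟨φ, hφ, h1⟩, fun ψ hψ => h2 ⟨ψ, hψ, rfl⟩⟩

/-- TASK K1a.  Along a ray the norm of a polygonal space is given by ONE functional for a while. -/
lemma Polygonal.seg (h : Polygonal Z) (x v : Z) :
    ∃ (ε : ℝ) (φ : Z →L[ℝ] ℝ), 0 < ε ∧ ∀ t : ℝ, 0 ≤ t → t ≤ ε → ‖x + t • v‖ = φ (x + t • v) := by
  obtain ⟨s, hs⟩ := h.line x v
  have hch : ∀ n : ℕ, ∃ φ : s, (φ : Z →L[ℝ] ℝ) (x + (1 / ((n : ℝ) + 1)) • v)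
      = ‖x + (1 / ((n : ℝ) + 1)) • v‖ := by
    intro n
    obtain ⟨φ, hφ, h1⟩ := (hs (1 / ((n : ℝ) + 1))).1
    exact ⟨⟨φ, hφ⟩, h1⟩
  choose f hf using hch
  obtain ⟨φ, hφ⟩ := Finite.exists_infinite_fiber f
  rw [Set.infinite_coe_iff] at hφ
  -- `φ` is active at `0`
  have h0 : (φ : Z →L[ℝ] ℝ) x = ‖x‖ := by
    have hle : (φ : Z →L[ℝ] ℝ) x ≤ ‖x‖ := by
      have := (hs 0).2 φ φ.2
      simpa using this
    by_contra hne
    have hlt : 0 < ‖x‖ - (φ : Z →L[ℝ] ℝ) x := by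
      have := lt_of_le_of_ne hle hne
      linarith
    set δ := ‖x‖ - (φ : Z →L[ℝ] ℝ) x with hδ
    set C := (φ : Z →L[ℝ] ℝ) v + ‖v‖ with hC
    obtain ⟨N, hN⟩ := exists_nat_gt (C / δ)
    obtain ⟨n, hn, hNn⟩ := hφ.exists_gt N
    have hfn : f n = φ := hn
    have h1 := hf n
    rw [hfn] at h1
    have hpos : (0 : ℝ) < (n : ℝ) + 1 := by positivity
    set t := 1 / ((n : ℝ) + 1) with ht
    have htpos : 0 < t := by positivity
    have h2 : ‖x‖ ≤ ‖x + t • v‖ + t * ‖v‖ := by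
      have : x = (x + t • v) - t • v := by abel
      calc ‖x‖ = ‖(x + t • v) - t • v‖ := by rw [← this]
        _ ≤ ‖x + t • v‖ + ‖t • v‖ := norm_sub_le _ _
        _ = ‖x + t • v‖ + t * ‖v‖ := by rw [norm_smul, Real.norm_of_nonneg htpos.le]
    have h3 : (φ : Z →L[ℝ] ℝ) (x + t • v) = (φ : Z →L[ℝ] ℝ) x + t * (φ : Z →L[ℝ] ℝ) v := by
      simp
    have h4 : δ ≤ t * C := by
      rw [hδ, hC]; nlinarith
    have h5 : C / δ < (n : ℝ) + 1 := by
      have : (N : ℝ) < (n : ℝ) := by exact_mod_cast hNn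
      linarith
    rw [div_lt_iff₀ hlt] at h5
    have h6 : t * C < δ := by
      rw [ht, one_div, inv_mul_lt_iff₀ hpos]
      linarith
    linarith
  obtain ⟨n, hn⟩ := hφ.nonempty
  have hfn : f n = φ := hn
  have h1 := hf n
  rw [hfn] at h1
  have hpos : (0 : ℝ) < (n : ℝ) + 1 := by positivity
  set ε := 1 / ((n : ℝ) + 1) with hε
  have hεpos : 0 < ε := by positivity
  refine ⟨ε, φ, hεpos, fun t ht0 ht1 => le_antisymm ?_ ((hs t).2 φ φ.2)⟩
  have hconv := norm_le_of_active (φ : Z →L[ℝ] ℝ) h0 h1 (a := 1 - t / ε) (b := t / ε)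
    (by rw [sub_nonneg, div_le_one hεpos]; exact ht1) (by positivity)
  have heq : (1 - t / ε) • x + (t / ε) • (x + ε • v) = x + t • v := by
    rw [smul_add, smul_smul, div_mul_cancel₀ _ hεpos.ne', sub_smul, one_smul]
    abel
  rwa [heq] at hconv

/-- TASK K1b.  Rigidity: a norm-one functional which norms an interior point of the segment of K1a
norms the whole segment. -/
lemma Polygonal.local (h : Polygonal Z) (x v : Z) :
    ∃ ε : ℝ, 0 < ε ∧ ∀ ψ : Z →L[ℝ] ℝ, (∀ z, ψ z ≤ ‖z‖) → ∀ t : ℝ, 0 < t → t < ε →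
      ψ (x + t • v) = ‖x + t • v‖ → ∀ t' : ℝ, 0 ≤ t' → t' ≤ ε →
        ψ (x + t' • v) = ‖x + t' • v‖ := by
  obtain ⟨ε, φ, hε, hφ⟩ := h.seg x v
  refine ⟨ε, hε, fun ψ hψ t ht0 ht1 hact t' ht0' ht1' => ?_⟩
  have e0 := hφ 0 le_rfl hε.le
  have e1 := hφ ε hε.le le_rfl
  have et := hφ t ht0.le ht1.le
  have et' := hφ t' ht0' ht1'
  have l0 := hψ (x + (0 : ℝ) • v)
  have l1 := hψ (x + ε • v)
  rw [et']
  rw [e0] at l0
  rw [e1] at l1
  rw [et] at hact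
  simp only [map_add, map_smul, smul_eq_mul] at *
  set A := φ x - ψ x with hA
  set B := φ v - ψ v with hB
  have hA0 : 0 ≤ A := by rw [hA]; linarith
  have hAt : A + t * B = 0 := by rw [hA, hB]; linarith
  have hAe : 0 ≤ A + ε * B := by rw [hA, hB]; linarith
  have hB1 : B ≤ 0 := by
    by_contra hc
    rw [not_le] at hc
    have := mul_pos ht0 hc
    linarith
  have hB2 : 0 ≤ B := by
    by_contra hc
    rw [not_le] at hc
    have : (ε - t) * B < 0 := mul_neg_of_pos_of_neg (by linarith) hc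
    nlinarith
  have hB0 : B = 0 := le_antisymm hB1 hB2
  have hA00 : A = 0 := by rw [hB0] at hAt; linarith
  have : φ v = ψ v := by rw [hB] at hB0; linarith
  have : φ x = ψ x := by rw [hA] at hA00; linarith
  simp [*]

/-- TASK K2.  A line in a polygonal space has only finitely many kinks. -/
lemma Polygonal.no_kink (h : Polygonal Z) (a b : Z) :
    ∃ k : ℕ, ‖a + (2 * (k : ℝ) + 2) • b‖ + ‖a + (2 * (k : ℝ)) • b‖
      ≤ 2 * ‖a + (2 * (k : ℝ) + 1) • b‖ := by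
  obtain ⟨s, hs⟩ := h.line a b
  have hch : ∀ n : ℕ, ∃ φ : s, (φ : Z →L[ℝ] ℝ) (a + (2 * (n : ℝ)) • b)
      = ‖a + (2 * (n : ℝ)) • b‖ := by
    intro n
    obtain ⟨φ, hφ, h1⟩ := (hs (2 * (n : ℝ))).1
    exact ⟨⟨φ, hφ⟩, h1⟩
  choose f hf using hch
  obtain ⟨k0, k0', hne, hff⟩ := Finite.exists_ne_map_eq_of_infinite f
  -- wlog `k < k'`
  obtain ⟨k, k', hlt, hkk⟩ : ∃ k k' : ℕ, k < k' ∧ f k = f k' := by
    rcases lt_or_gt_of_ne hne with hl | hl
    · exact ⟨k0, k0', hl, hff⟩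
    · exact ⟨k0', k0, hl, hff.symm⟩
  refine ⟨k, ?_⟩
  set φ : Z →L[ℝ] ℝ := (f k : Z →L[ℝ] ℝ) with hφ
  have h1 : φ (a + (2 * (k : ℝ)) • b) = ‖a + (2 * (k : ℝ)) • b‖ := hf k
  have h2 : φ (a + (2 * (k' : ℝ)) • b) = ‖a + (2 * (k' : ℝ)) • b‖ := by
    rw [hφ, hkk]; exact hf k'
  have hd : (1 : ℝ) ≤ (k' : ℝ) - (k : ℝ) := by
    have : (k : ℝ) + 1 ≤ (k' : ℝ) := by exact_mod_cast hlt
    linarith
  have hdpos : (0 : ℝ) < (k' : ℝ) - (k : ℝ) := by linarith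
  set lam : ℝ := 1 / ((k' : ℝ) - (k : ℝ)) with hlam
  have hlam0 : 0 ≤ lam := by positivity
  have hlam1 : lam ≤ 1 := by
    rw [hlam, div_le_one hdpos]; exact hd
  have hconv := norm_le_of_active φ h1 h2 (a := 1 - lam) (b := lam) (by linarith) hlam0
  have hl : lam * ((k' : ℝ) - (k : ℝ)) = 1 := by
    rw [hlam]; field_simp
  have heq : (1 - lam) • (a + (2 * (k : ℝ)) • b) + lam • (a + (2 * (k' : ℝ)) • b)
      = a + (2 * (k : ℝ) + 2) • b := by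
    have hc : (1 - lam) * (2 * (k : ℝ)) + lam * (2 * (k' : ℝ)) = 2 * (k : ℝ) + 2 := by
      nlinarith
    rw [smul_add, smul_add, smul_smul, smul_smul, ← hc, add_smul ((1 - lam) * (2 * (k : ℝ))),
      sub_smul 1 lam a, one_smul]
    abel
  rw [heq] at hconv
  have h3 := (hs (2 * (k : ℝ) + 1)).2 φ (f k).2
  rw [← h1]
  simp only [map_add, map_smul, smul_eq_mul] at *
  linarith

end Vale.Agent.P084
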