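import Vale.Agent.P084.Poly.Main

namespace Vale.Agent.P084

open Metric Set

set_option linter.unusedSectionVars false

universe u v w

variable {ι : Type u} {Z : Type v} {W : Type w}
  [NormedAddCommGroup Z] [NormedSpace ℝ Z] [NormedAddCommGroup W] [NormedSpace ℝ W]

/-- A family of facets with nonempty interior covering the unit sphere of `Z`, where in addition the
norm is affine on a short initial piece of every ray (expressed through the facet functionals). -/
structure FacetFamily (ι : Type u) (Z : Type v) [NormedAddCommGroup Z] [NormedSpace ℝ Z] where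
  φ : ι → Z →L[ℝ] ℝ
  le : ∀ i x, φ i x ≤ ‖x‖
  cover : ∀ x : Z, ‖x‖ = 1 → ∃ i, φ i x = 1
  center : ∀ i, ∃ (c : Z) (ρ : ℝ), 0 < ρ ∧ ‖c‖ = 1 ∧ Flat (φ i) c ρ
  loc : ∀ x v : Z, ∃ ε : ℝ, 0 < ε ∧ ∀ i, ∀ t : ℝ, 0 < t → t < ε →
    φ i (x + t • v) = ‖x + t • v‖ → ∀ t' : ℝ, 0 ≤ t' → t' ≤ ε → φ i (x + t' • v) = ‖x + t' • v‖

namespace FacetFamily

variable (D : FacetFamily ι Z)

lemma cover' {x : Z} (hx : x ≠ 0) : ∃ i, D.φ i x = ‖x‖ := by
  have hpos : 0 < ‖x‖ := norm_pos_iff.mpr hx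
  obtain ⟨i, hi⟩ := D.cover (‖x‖⁻¹ • x) (by
    rw [norm_smul, norm_inv, norm_norm, inv_mul_cancel₀ hpos.ne'])
  refine ⟨i, ?_⟩
  rw [map_smul, smul_eq_mul, inv_mul_eq_iff_eq_mul₀ hpos.ne', mul_one] at hi
  exact hi

lemma stay_right {g h : Z} (hg : ‖g‖ = 1) {j : ι} (hj : D.φ j g = 1) (hjh : D.φ j h = 0)
    (hh : ∀ i, D.φ i g = 1 → D.φ i h = 0) :
    ∃ δ : ℝ, 0 < δ ∧ ∀ s : ℝ, 0 ≤ s → s ≤ δ → ‖g + s • h‖ = 1 := by
  obtain ⟨ε, hε, hloc⟩ := D.loc g h
  have hp : g + (ε / 2) • h ≠ 0 := by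
    intro h0
    have := D.le j (g + (ε / 2) • h)
    rw [map_add, map_smul, hj, hjh, h0, norm_zero] at this
    simp at this
    linarith
  obtain ⟨i, hi⟩ := D.cover' hp
  have hall := hloc i (ε / 2) (by positivity) (by linarith) hi
  have h0 := hall 0 le_rfl hε.le
  rw [zero_smul, add_zero, hg] at h0
  have hih := hh i h0
  refine ⟨ε, hε, fun s hs0 hs1 => ?_⟩
  rw [← hall s hs0 hs1, map_add, map_smul, h0, hih]
  simp

lemma stay {g h : Z} (hg : ‖g‖ = 1) {j : ι} (hj : D.φ j g = 1) (hjh : D.φ j h = 0)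
    (hh : ∀ i, D.φ i g = 1 → D.φ i h = 0) :
    ∃ δ : ℝ, 0 < δ ∧ ∀ s : ℝ, |s| < δ → ‖g + s • h‖ = 1 := by
  obtain ⟨δ₁, hδ₁, h₁⟩ := D.stay_right hg hj hjh hh
  obtain ⟨δ₂, hδ₂, h₂⟩ := D.stay_right (h := -h) hg hj (by rw [map_neg, hjh, neg_zero])
    (fun i hi => by rw [map_neg, hh i hi, neg_zero])
  refine ⟨min δ₁ δ₂, lt_min hδ₁ hδ₂, fun s hs => ?_⟩
  rcases le_total 0 s with h0 | h0
  · apply h₁ s h0
    rw [abs_of_nonneg h0] at hs
    exact (lt_of_lt_of_le hs (min_le_left _ _)).le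
  · have := h₂ (-s) (by linarith) (by
      rw [abs_of_nonpos h0] at hs
      exact (lt_of_lt_of_le hs (min_le_right _ _)).le)
    rwa [smul_neg, neg_smul, neg_neg] at this

end FacetFamily

theorem facet_raw (D : FacetFamily ι Z) (hrank : 1 < Module.rank ℝ Z) {f : Z → W}
    (hf : SphIso f) : ∃ T : Z →L[ℝ] W, ∀ z, ‖z‖ = 1 → T z = f z := by
  -- centres with radius at most one
  have hcen : ∀ i, ∃ (c : Z) (ρ : ℝ), 0 < ρ ∧ ρ ≤ 1 ∧ ‖c‖ = 1 ∧ Flat (D.φ i) c ρ := by
    intro i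
    obtain ⟨c, ρ, hρ, hc, hfl⟩ := D.center i
    exact ⟨c, min ρ 1, lt_min hρ one_pos, min_le_right _ _, hc, hfl.mono (min_le_left _ _)⟩
  choose c ρ hρ hρ1 hc hfl using hcen
  have hdata := fun i => facet_data hf (D.le i) (hfl i) (hρ i) (hc i)
  choose T ψ hT hsurj hψ hψT using hdata
  have hface : ∀ i x, ‖x‖ = 1 → D.φ i x = 1 → ψ i (f x) = 1 := by
    intro i x hx hφx
    rw [hT i x hx hφx, hψT, hφx]
  -- step 4
  have step4 : ∀ i j r, ‖r‖ = 1 → D.φ i r = 1 → D.φ j r = 1 → ∀ x, ψ i (T j x) = D.φ i x := by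
    intro i j r hr hir hjr
    set s : ℝ := ρ i / 13 with hs
    have hs0 : 0 < s := by have := hρ i; positivity
    have hs1 : s ≤ 1 := by have := hρ1 i; rw [hs]; linarith
    obtain ⟨a, ha⟩ : ∃ a, a = (1 - s) • r + s • c j := ⟨_, rfl⟩
    have hfa : Flat (D.φ j) a (s * ρ j) := by
      rw [ha]; exact Flat.conv (D.le j) (hfl j) (by rw [hr, hjr]) hs0 hs1
    have hsρ : 0 < s * ρ j := mul_pos hs0 (hρ j)
    have hφc : D.φ j (c j) = 1 := by rw [← (hfl j).self (hρ j), hc j]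
    have han : ‖a‖ = 1 := by
      rw [hfa.self hsρ, ha, map_add, map_smul, map_smul, hjr, hφc]; simp
    have har : ‖a - r‖ ≤ 2 * s := by
      have e : a - r = s • (c j - r) := by rw [ha]; module
      rw [e, norm_smul, Real.norm_of_nonneg hs0.le]
      have := norm_sub_le (c j) r
      rw [hc j, hr] at this
      nlinarith
    have hloc : ∀ z, ‖z‖ = 1 → ‖z - a‖ < s * ρ j → ψ i (T j z) = D.φ i z := by
      intro z hz hza
      have hjz : D.φ j z = 1 := by rw [← hfa.near hza, hz]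
      rw [← hT j z hz hjz]
      apply eq_of_near hf (D.le i) (hψ i) (hfl i) (hρ1 i) (hc i) (hface i) hz hr hir
      have h1 : ‖z - r‖ ≤ ‖z - a‖ + ‖a - r‖ := by
        have := norm_add_le (z - a) (a - r)
        rwa [sub_add_sub_cancel] at this
      have h2 : s * ρ j ≤ s := by
        have := hρ1 j
        nlinarith
      have h3 : ρ i = 13 * s := by rw [hs]; ring
      linarith
    intro x
    by_cases hx0 : x = 0
    · rw [hx0]; simp
    have hxpos : 0 < ‖x‖ := norm_pos_iff.mpr hx0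
    set t : ℝ := s * ρ j / 4 / ‖x‖ with ht
    have ht0 : 0 < t := by positivity
    have htx : ‖t • x‖ = s * ρ j / 4 := by
      rw [norm_smul, Real.norm_of_nonneg ht0.le, ht, div_mul_cancel₀ _ hxpos.ne']
    have hsρ1 : s * ρ j ≤ 1 := by
      have := hρ1 j
      nlinarith
    obtain ⟨hpos, hcl⟩ := norm_normalize_sub_le han (w := t • x) (by rw [htx]; linarith)
    have hzn : ‖‖a + t • x‖⁻¹ • (a + t • x)‖ = 1 := by
      rw [norm_smul, norm_inv, norm_norm, inv_mul_cancel₀ hpos.ne']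
    have h1 := hloc _ hzn (by rw [htx] at hcl; linarith)
    have h0 := hloc a han (by rw [sub_self, norm_zero]; exact hsρ)
    simp only [map_smul, map_add, smul_eq_mul] at h1
    have h2 : ψ i (T j a) + t * ψ i (T j x) = D.φ i a + t * D.φ i x :=
      mul_left_cancel₀ (inv_ne_zero hpos.ne') h1
    rw [h0] at h2
    have h3 : t * ψ i (T j x) = t * D.φ i x := by linarith
    exact mul_left_cancel₀ ht0.ne' h3
  -- step 5
  have step5 : ∀ j j' r, ‖r‖ = 1 → D.φ j r = 1 → D.φ j' r = 1 → T j = T j' := by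
    intro j j' r hr hjr hjr'
    ext x
    obtain ⟨h, hh⟩ := hsurj j (T j x - T j' x)
    have hkill : ∀ i g, ‖g‖ = 1 → D.φ i g = 1 → D.φ j g = 1 → D.φ j' g = 1 → D.φ i h = 0 := by
      intro i g hg hig hjg hjg'
      rw [← step4 i j g hg hig hjg h, hh, map_sub, step4 i j g hg hig hjg x,
        step4 i j' g hg hig hjg' x, sub_self]
    have hjh : D.φ j h = 0 := hkill j r hr hjr hjr hjr'
    have hjh' : D.φ j' h = 0 := hkill j' r hr hjr' hjr hjr'
    set S : Set ℝ := {t | ‖r + t • h‖ = 1} with hS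
    have hclosed : IsClosed S := isClosed_eq (by fun_prop) continuous_const
    have hopen : IsOpen S := by
      rw [Metric.isOpen_iff]
      intro t ht
      have ht' : ‖r + t • h‖ = 1 := ht
      have h1 : D.φ j (r + t • h) = 1 := by rw [map_add, map_smul, hjr, hjh]; simp
      have h2 : D.φ j' (r + t • h) = 1 := by rw [map_add, map_smul, hjr', hjh']; simp
      obtain ⟨δ, hδ, hst⟩ := D.stay ht' h1 hjh (fun i hi => hkill i _ ht' hi h1 h2)
      refine ⟨δ, hδ, ?_⟩
      intro s hs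
      rw [mem_ball, Real.dist_eq] at hs
      have h3 := hst (s - t) hs
      have e : r + t • h + (s - t) • h = r + s • h := by module
      rw [e] at h3
      exact h3
    have huniv : S = univ := IsClopen.eq_univ ⟨hclosed, hopen⟩ ⟨0, by
      change ‖r + (0 : ℝ) • h‖ = 1
      rw [zero_smul, add_zero]; exact hr⟩
    have hh0 : h = 0 := by
      by_contra hne
      have hpos : 0 < ‖h‖ := norm_pos_iff.mpr hne
      have h1 : (3 / ‖h‖ : ℝ) ∈ S := by rw [huniv]; trivial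
      have h2 : ‖r + (3 / ‖h‖ : ℝ) • h‖ = 1 := h1
      have h3 := norm_sub_le (r + (3 / ‖h‖ : ℝ) • h) r
      rw [add_sub_cancel_left, norm_smul, Real.norm_of_nonneg (by positivity),
        div_mul_cancel₀ _ hpos.ne', h2, hr] at h3
      linarith
    rw [hh0, map_zero] at hh
    exact (sub_eq_zero.mp hh.symm)
  -- homogeneous form of step 5
  have step5h : ∀ j j' r, r ≠ 0 → D.φ j r = ‖r‖ → D.φ j' r = ‖r‖ → T j = T j' := by
    intro j j' r hr hj hj'
    have hpos : 0 < ‖r‖ := norm_pos_iff.mpr hr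
    apply step5 j j' (‖r‖⁻¹ • r)
    · rw [norm_smul, norm_inv, norm_norm, inv_mul_cancel₀ hpos.ne']
    · rw [map_smul, hj, smul_eq_mul, inv_mul_cancel₀ hpos.ne']
    · rw [map_smul, hj', smul_eq_mul, inv_mul_cancel₀ hpos.ne']
  -- step 6: along a line avoiding the origin the operator does not change
  have key : ∀ x y : Z, (∀ t : ℝ, x + t • (y - x) ≠ 0) → ∀ i k, D.φ i x = ‖x‖ → D.φ k y = ‖y‖ →
      T k = T i := by
    intro x y hne i k hi hk
    let P : ℝ → Prop := fun t => ∃ m, D.φ m (x + t • (y - x)) = ‖x + t • (y - x)‖ ∧ T m = T i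
    have hside : ∀ (t₀ : ℝ) (v : Z) (σ : ℝ), σ • (y - x) = v → ∃ δ : ℝ, 0 < δ ∧ ∀ s : ℝ, 0 < s →
        s < δ → (P (t₀ + s * σ) ↔ P t₀) := by
      intro t₀ v σ hσ
      obtain ⟨ε, hε, hloc⟩ := D.loc (x + t₀ • (y - x)) v
      refine ⟨ε, hε, fun s hs0 hs1 => ?_⟩
      have e : x + (t₀ + s * σ) • (y - x) = x + t₀ • (y - x) + s • v := by
        rw [← hσ]; module
      constructor
      · rintro ⟨m, hm, hTm⟩
        rw [e] at hm
        have := hloc m s hs0 hs1 hm 0 le_rfl hε.le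
        rw [zero_smul, add_zero] at this
        exact ⟨m, this, hTm⟩
      · rintro ⟨m, hm, hTm⟩
        obtain ⟨n, hn⟩ := D.cover' (hne (t₀ + s * σ))
        refine ⟨n, hn, ?_⟩
        rw [e] at hn
        have := hloc n s hs0 hs1 hn 0 le_rfl hε.le
        rw [zero_smul, add_zero] at this
        rw [step5h n m _ (hne t₀) this hm, hTm]
    have hlocal : ∀ t₀ : ℝ, ∃ δ : ℝ, 0 < δ ∧ ∀ t : ℝ, |t - t₀| < δ → (P t ↔ P t₀) := by
      intro t₀
      obtain ⟨δ₁, hδ₁, h₁⟩ := hside t₀ (y - x) 1 (one_smul _ _)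
      obtain ⟨δ₂, hδ₂, h₂⟩ := hside t₀ (-(y - x)) (-1) (by rw [neg_smul, one_smul])
      refine ⟨min δ₁ δ₂, lt_min hδ₁ hδ₂, fun t ht => ?_⟩
      rcases lt_trichotomy t t₀ with hlt | heq | hgt
      · have := h₂ (t₀ - t) (by linarith) (by
          rw [abs_of_neg (by linarith)] at ht
          have := lt_of_lt_of_le ht (min_le_right _ _)
          linarith)
        have e : t₀ + (t₀ - t) * (-1) = t := by ring
        rwa [e] at this
      · rw [heq]
      · have := h₁ (t - t₀) (by linarith) (by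
          rw [abs_of_pos (by linarith)] at ht
          exact lt_of_lt_of_le ht (min_le_left _ _))
        have e : t₀ + (t - t₀) * 1 = t := by ring
        rwa [e] at this
    let U : Set ℝ := {t | P t}
    have hUo : IsOpen U := by
      rw [Metric.isOpen_iff]
      intro t₀ ht₀
      obtain ⟨δ, hδ, h⟩ := hlocal t₀
      refine ⟨δ, hδ, fun t ht => ?_⟩
      rw [mem_ball, Real.dist_eq] at ht
      exact (h t ht).mpr ht₀
    have hUc : IsOpen Uᶜ := by
      rw [Metric.isOpen_iff]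
      intro t₀ ht₀
      obtain ⟨δ, hδ, h⟩ := hlocal t₀
      refine ⟨δ, hδ, fun t ht => ?_⟩
      rw [mem_ball, Real.dist_eq] at ht
      exact fun hPt => ht₀ ((h t ht).mp hPt)
    have hUuniv : U = univ :=
      IsClopen.eq_univ ⟨isOpen_compl_iff.mp hUc, hUo⟩ ⟨0, ⟨i, by
        rw [zero_smul, add_zero]; exact hi, rfl⟩⟩
    have h1 : (1 : ℝ) ∈ U := by rw [hUuniv]; trivial
    obtain ⟨m, hm, hTm⟩ := h1
    have e : x + (1 : ℝ) • (y - x) = y := by rw [one_smul]; abel
    have hy0 : y ≠ 0 := by rw [← e]; exact hne 1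
    rw [e] at hm
    rw [step5h k m y hy0 hk hm, hTm]
  -- a base point
  obtain ⟨x0, w, hx0n, hw⟩ : ∃ x0 w : Z, ‖x0‖ = 1 ∧ w ∉ Submodule.span ℝ {x0} := by
    have hnt : Nontrivial Z := by
      by_contra hnt
      rw [not_nontrivial_iff_subsingleton] at hnt
      have := rank_subsingleton' ℝ Z
      rw [this] at hrank
      exact absurd hrank (by simp)
    obtain ⟨x1, hx1⟩ := exists_ne (0 : Z)
    have hpos : 0 < ‖x1‖ := norm_pos_iff.mpr hx1
    refine ⟨‖x1‖⁻¹ • x1, ?_⟩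
    have hn : ‖‖x1‖⁻¹ • x1‖ = 1 := by
      rw [norm_smul, norm_inv, norm_norm, inv_mul_cancel₀ hpos.ne']
    by_contra hcon
    push Not at hcon
    have htop : Submodule.span ℝ {‖x1‖⁻¹ • x1} = ⊤ := by
      rw [eq_top_iff]
      intro w _
      exact hcon w hn
    have h1 := rank_span_le (R := ℝ) ({‖x1‖⁻¹ • x1} : Set Z)
    rw [htop, rank_top, Cardinal.mk_singleton] at h1
    exact absurd hrank (not_lt.mpr h1)
  have hx00 : x0 ≠ 0 := by
    intro h; rw [h, norm_zero] at hx0n; exact zero_ne_one hx0n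
  obtain ⟨i0, hi0⟩ := D.cover x0 hx0n
  have hi0' : D.φ i0 x0 = ‖x0‖ := by rw [hi0, hx0n]
  have hw0 : w ≠ 0 := by
    intro h; rw [h] at hw; exact hw (Submodule.zero_mem _)
  obtain ⟨iw, hiw⟩ := D.cover' hw0
  -- lines from `± x0` to `w` avoid the origin
  have hline : ∀ σ : ℝ, σ ≠ 0 → ∀ t : ℝ, σ • x0 + t • (w - σ • x0) ≠ 0 := by
    intro σ hσ t h0
    by_cases ht : t = 0
    · rw [ht, zero_smul, add_zero] at h0
      exact hx00 ((smul_eq_zero.mp h0).resolve_left hσ)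
    · apply hw
      have e : w = (t⁻¹ * (t - 1) * σ) • x0 := by
        have h1 : t • w = ((t - 1) * σ) • x0 := by
          have : t • w = (σ • x0 + t • (w - σ • x0)) + ((t - 1) * σ) • x0 := by module
          rw [this, h0, zero_add]
        rw [mul_assoc, mul_smul, ← h1, smul_smul, inv_mul_cancel₀ ht, one_smul]
      rw [e]
      exact Submodule.smul_mem _ _ (Submodule.mem_span_singleton_self _)
  have hTw : T iw = T i0 := by
    have := key ((1 : ℝ) • x0) w (hline 1 one_ne_zero) i0 iw (by rw [one_smul]; exact hi0') hiw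
    exact this
  refine ⟨T i0, ?_⟩
  intro z hz
  obtain ⟨i, hi⟩ := D.cover z hz
  have hi' : D.φ i z = ‖z‖ := by rw [hi, hz]
  rw [hT i z hz hi]
  by_cases hzl : ∀ t : ℝ, x0 + t • (z - x0) ≠ 0
  · rw [key x0 z hzl i0 i hi0' hi']
  · push Not at hzl
    obtain ⟨t, ht⟩ := hzl
    -- then `z = - x0`
    have h1 : t • z = (t - 1) • x0 := by
      have : t • z = (x0 + t • (z - x0)) + (t - 1) • x0 := by module
      rw [this, ht, zero_add]
    have h2 : |t| = |t - 1| := by
      have := congrArg norm h1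
      rwa [norm_smul, norm_smul, hz, hx0n, mul_one, mul_one, Real.norm_eq_abs,
        Real.norm_eq_abs] at this
    have h3 : t = 1 / 2 := by
      rcases abs_eq_abs.mp h2 with h | h <;> linarith
    have h4 : z = (-1 : ℝ) • x0 := by
      rw [h3] at h1
      have : z = (2 : ℝ) • ((1 / 2 : ℝ) • z) := by rw [smul_smul]; norm_num
      rw [this, h1, smul_smul]; norm_num
    have := key ((-1 : ℝ) • x0) w (hline (-1) (by norm_num)) i iw (by rw [← h4]; exact hi') hiw
    rw [← this, hTw]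

end Vale.Agent.P084
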