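import Vale.Agent.P084.Poly.Basic

namespace Vale.Agent.P084

open Metric Set

set_option linter.unusedSectionVars false

universe v w

variable {Z : Type v} {W : Type w}
  [NormedAddCommGroup Z] [NormedSpace ℝ Z] [NormedAddCommGroup W] [NormedSpace ℝ W]

lemma SphIso.exists_inv {f : Z → W} (hf : SphIso f) :
    ∃ g : W → Z, SphIso g ∧ (∀ x, ‖x‖ = 1 → g (f x) = x) ∧ ∀ y, ‖y‖ = 1 → f (g y) = y := by
  have hs := hf.surj
  choose! g hg1 hg2 using hs
  have hgf : ∀ x, ‖x‖ = 1 → g (f x) = x := by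
    intro x hx
    have h1 := hf.norm x hx
    exact hf.inj (hg1 _ h1) hx (hg2 _ h1)
  refine ⟨g, ⟨hg1, ?_, ?_⟩, hgf, hg2⟩
  · intro y y' hy hy'
    rw [← hf.iso _ _ (hg1 y hy) (hg1 y' hy'), hg2 y hy, hg2 y' hy']
  · intro x hx
    exact ⟨f x, hf.norm x hx, hgf x hx⟩

section

variable {f : Z → W} (hf : SphIso f) {φ : Z →L[ℝ] ℝ} (hφ : ∀ x, φ x ≤ ‖x‖)
  {ψ : W →L[ℝ] ℝ} (hψ : ∀ y, ψ y ≤ ‖y‖)

include hf in
/-- the antipode of the image of `-x₁`, `x₁` a flat point, is the image of a point of the face -/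
lemma exists_anti {x₁ : Z} {ρ : ℝ} (h : Flat φ x₁ ρ) (hρ : 0 < ρ) (hx : ‖x₁‖ = 1) :
    ∃ x, ‖x‖ = 1 ∧ φ x = 1 ∧ f x = - f (-x₁) := by
  have hn : ‖-x₁‖ = 1 := by rw [norm_neg]; exact hx
  obtain ⟨x, hx1, hfx⟩ := hf.surj (- f (-x₁)) (by rw [norm_neg]; exact hf.norm _ hn)
  have h2 := hf.anti_two hn hx1 hfx
  refine ⟨x, hx1, ?_, hfx⟩
  apply h.eq_one hρ hx hx1
  rw [add_comm, ← sub_neg_eq_add]; exact h2

include hf hφ hψ in
/-- one half of the key lemma: near a face with nonempty interior, `ψ ∘ f ≤ φ` -/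
lemma le_of_near {c : Z} {ρ : ℝ} (hc : Flat φ c ρ) (hρ1 : ρ ≤ 1) (hc1 : ‖c‖ = 1)
    (hface : ∀ x, ‖x‖ = 1 → φ x = 1 → ψ (f x) = 1) {z r : Z} (hz : ‖z‖ = 1) (hr : ‖r‖ = 1)
    (hφr : φ r = 1) (hnear : 2 * ‖z - r‖ < ρ) : ψ (f z) ≤ φ z := by
  have hρ : 0 < ρ := lt_of_le_of_lt (by positivity) hnear
  have hφc : φ c = 1 := by rw [← hc.self hρ, hc1]
  obtain ⟨η, hη⟩ : ∃ η, η = 1 - φ z := ⟨_, rfl⟩
  have hη0 : 0 ≤ η := by
    have := hφ z
    rw [hz] at this; linarith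
  have hη1 : η ≤ ‖z - r‖ := by
    have := hφ (r - z)
    rw [map_sub, hφr, norm_sub_rev] at this
    linarith
  obtain ⟨k, hk⟩ : ∃ k, k = η • r + (z - r) := ⟨_, rfl⟩
  have hkn : ‖k‖ ≤ 2 * ‖z - r‖ := by
    have := norm_add_le (η • r) (z - r)
    rw [← hk, norm_smul, hr, mul_one, Real.norm_of_nonneg hη0] at this
    linarith
  have hφk : φ k = 0 := by
    rw [hk, map_add, map_smul, map_sub, hφr, hη]; simp
  have hfl : Flat φ (c - k) (ρ - ‖k‖) := by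
    have := hc.shift (c - k)
    have e : c - k - c = -k := by abel
    rwa [e, norm_neg] at this
  have hρk : 0 < ρ - ‖k‖ := by linarith
  have hx1 : ‖c - k‖ = 1 := by
    rw [hfl.self hρk, map_sub, hφc, hφk, sub_zero]
  obtain ⟨x, hx, hφx, hfx⟩ := exists_anti hf hfl hρk hx1
  have h1 : ‖f z + f x‖ = ‖z + (c - k)‖ := by
    have e : f z + f x = f z - f (-(c - k)) := by rw [hfx]; abel
    rw [e, hf.iso _ _ hz (by rw [norm_neg]; exact hx1), sub_neg_eq_add]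
  have h2 : ‖z + (c - k)‖ ≤ 2 - η := by
    have e : z + (c - k) = c + (1 - η) • r := by rw [hk]; module
    have := norm_add_le c ((1 - η) • r)
    rw [← e, norm_smul, hr, hc1, mul_one, Real.norm_of_nonneg (by linarith)] at this
    linarith
  have h3 := hψ (f z + f x)
  rw [map_add, hface x hx hφx, h1] at h3
  linarith

include hf in
/-- the image of the centre of a face is a flat point of the target sphere -/
lemma flat_image {c : Z} {ρ : ℝ} (hc : Flat φ c ρ) (hρ1 : ρ ≤ 1) (hc1 : ‖c‖ = 1)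
    (hface : ∀ x, ‖x‖ = 1 → φ x = 1 → ψ (f x) = 1) : Flat ψ (f c) (ρ / 2) := by
  intro w hw
  have hfc : ‖f c‖ = 1 := hf.norm _ hc1
  obtain ⟨y, hy⟩ : ∃ y, y = f c + w := ⟨_, rfl⟩
  rw [← hy]
  have hyc : y - f c = w := by rw [hy]; abel
  have hn1 : |‖y‖ - 1| ≤ ‖w‖ := by
    rw [← hfc, ← hyc]; exact abs_norm_sub_norm_le _ _
  have hn2 := abs_le.mp hn1
  have hypos : 0 < ‖y‖ := by linarith
  have hyn : ‖‖y‖⁻¹ • y‖ = 1 := by
    rw [norm_smul, norm_inv, norm_norm, inv_mul_cancel₀ hypos.ne']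
  obtain ⟨x, hx, hxy⟩ := hf.surj _ hyn
  have hd : ‖x - c‖ < ρ := by
    rw [← hf.iso _ _ hx hc1, hxy]
    have e : ‖y‖⁻¹ • y - f c = (‖y‖⁻¹ - 1) • y + (y - f c) := by module
    have h1 := norm_add_le ((‖y‖⁻¹ - 1) • y) (y - f c)
    rw [← e, norm_smul, Real.norm_eq_abs] at h1
    have h2 : |‖y‖⁻¹ - 1| * ‖y‖ = |‖y‖ - 1| := by
      rw [← abs_of_pos hypos, ← abs_mul, abs_of_pos hypos, sub_mul, inv_mul_cancel₀ hypos.ne',
        one_mul, abs_sub_comm]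
    rw [h2, hyc] at h1
    linarith
  have hφx : φ x = 1 := by rw [← hc.near hd, hx]
  have h3 := hface x hx hφx
  rw [hxy, map_smul, smul_eq_mul] at h3
  field_simp at h3
  linarith

include hf hψ in
/-- the face of `ψ` in the target sphere is exactly the image of the face of `φ` -/
lemma face_inv {c : Z} {ρ : ℝ} (hc : Flat φ c ρ) (hρ : 0 < ρ) (hc1 : ‖c‖ = 1)
    (hface : ∀ x, ‖x‖ = 1 → φ x = 1 → ψ (f x) = 1) {p : Z} (hp : ‖p‖ = 1) (hψp : ψ (f p) = 1) :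
    φ p = 1 := by
  obtain ⟨x, hx, hφx, hfx⟩ := exists_anti hf hc hρ hc1
  apply hc.eq_one hρ hc1 hp
  have e : ‖c + p‖ = ‖f p + f x‖ := by
    have e1 : f p + f x = f p - f (-c) := by rw [hfx]; abel
    rw [e1, hf.iso _ _ hp (by rw [norm_neg]; exact hc1), sub_neg_eq_add, add_comm]
  rw [e]
  apply le_antisymm
  · have := norm_add_le (f p) (f x)
    rw [hf.norm _ hp, hf.norm _ hx] at this; linarith
  · have := hψ (f p + f x)
    rw [map_add, hψp, hface x hx hφx] at this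
    linarith

include hf hφ hψ in
/-- the key lemma: near a face with nonempty interior, `ψ ∘ f = φ` -/
lemma eq_of_near {c : Z} {ρ : ℝ} (hc : Flat φ c ρ) (hρ1 : ρ ≤ 1) (hc1 : ‖c‖ = 1)
    (hface : ∀ x, ‖x‖ = 1 → φ x = 1 → ψ (f x) = 1) {z r : Z} (hz : ‖z‖ = 1) (hr : ‖r‖ = 1)
    (hφr : φ r = 1) (hnear : 4 * ‖z - r‖ < ρ) : ψ (f z) = φ z := by
  have hρ : 0 < ρ := lt_of_le_of_lt (by positivity) hnear
  apply le_antisymm
  · exact le_of_near hf hφ hψ hc hρ1 hc1 hface hz hr hφr (by linarith [norm_nonneg (z - r)])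
  · obtain ⟨g, hg, hgf, hfg⟩ := hf.exists_inv
    have h1 := le_of_near hg hψ hφ (flat_image hf hc hρ1 hc1 hface) (by linarith)
      (hf.norm _ hc1)
      (by
        intro y hy hψy
        apply face_inv hf hψ hc hρ hc1 hface (hg.norm y hy)
        rw [hfg y hy]; exact hψy)
      (hf.norm z hz) (hf.norm r hr) (hface r hr hφr)
      (by rw [hf.iso _ _ hz hr]; linarith)
    rwa [hgf z hz] at h1

end

end Vale.Agent.P084
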