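import Vale.Agent.P084.Poly.Patch
import Vale.Agent.P084.Poly.Near
import Vale.Agent.P084.CylMain

namespace Vale.Agent.P084

open Metric Set

set_option linter.unusedSectionVars false

universe u v w

variable {ι : Type u} {Z : Type v} {W : Type w}
  [NormedAddCommGroup Z] [NormedSpace ℝ Z] [NormedAddCommGroup W] [NormedSpace ℝ W]

lemma norm_normalize_sub_le {a w : Z} (ha : ‖a‖ = 1) (hw : ‖w‖ < 1) :
    0 < ‖a + w‖ ∧ ‖‖a + w‖⁻¹ • (a + w) - a‖ ≤ 2 * ‖w‖ := by
  obtain ⟨y, hy⟩ : ∃ y, y = a + w := ⟨_, rfl⟩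
  rw [← hy]
  have hyc : y - a = w := by rw [hy]; abel
  have hn1 : |‖y‖ - 1| ≤ ‖w‖ := by
    rw [← ha, ← hyc]; exact abs_norm_sub_norm_le _ _
  have hn2 := abs_le.mp hn1
  have hypos : 0 < ‖y‖ := by linarith
  refine ⟨hypos, ?_⟩
  have e : ‖y‖⁻¹ • y - a = (‖y‖⁻¹ - 1) • y + (y - a) := by module
  have h1 := norm_add_le ((‖y‖⁻¹ - 1) • y) (y - a)
  rw [← e, norm_smul, Real.norm_eq_abs] at h1
  have h2 : |‖y‖⁻¹ - 1| * ‖y‖ = |‖y‖ - 1| := by
    rw [← abs_of_pos hypos, ← abs_mul, abs_of_pos hypos, sub_mul, inv_mul_cancel₀ hypos.ne',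
      one_mul, abs_sub_comm]
  rw [h2, hyc] at h1
  linarith

namespace PolyFamily

variable (D : PolyFamily ι Z)

lemma exists_active {x : Z} (hx : ‖x‖ = 1) : ∃ i, D.φ i x = 1 := by
  obtain ⟨δ, hδ, hgap⟩ := D.gap x hx
  obtain ⟨i, hi⟩ := D.norming x δ hδ
  refine ⟨i, ?_⟩
  rcases hgap i with h | h
  · exact h
  · rw [hx] at hi; linarith

/-- moving from a unit vector `g` in a direction killed by all functionals active at `g` one stays
on the sphere for a while -/
lemma stay {g h : Z} (hg : ‖g‖ = 1) (hh : ∀ i, D.φ i g = 1 → D.φ i h = 0) :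
    ∃ δ : ℝ, 0 < δ ∧ ∀ s : ℝ, ‖s • h‖ < δ → ‖g + s • h‖ = 1 := by
  obtain ⟨δ, hδ, hgap⟩ := D.gap g hg
  refine ⟨δ, hδ, ?_⟩
  intro s hs
  obtain ⟨j, hj⟩ := D.exists_active hg
  apply le_antisymm
  · by_contra hlt
    rw [not_le] at hlt
    obtain ⟨i, hi⟩ := D.norming (g + s • h) (‖g + s • h‖ - 1) (by linarith)
    rw [map_add, map_smul] at hi
    rcases hgap i with h1 | h1
    · rw [h1, hh i h1] at hi
      simp at hi
    · have h2 := D.le i (s • h)
      rw [map_smul] at h2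
      linarith
  · have := D.le j (g + s • h)
    rw [map_add, map_smul, hj, hh j hj] at this
    simpa using this

end PolyFamily

theorem poly_raw (D : PolyFamily ι Z) (hrank : 1 < Module.rank ℝ Z) {f : Z → W} (hf : SphIso f) :
    ∃ T : Z →L[ℝ] W, ∀ z, ‖z‖ = 1 → T z = f z := by
  -- centres with radius at most one
  have hcen : ∀ i, ∃ (c : Z) (ρ : ℝ), 0 < ρ ∧ ρ ≤ 1 ∧ ‖c‖ = 1 ∧ Flat (D.φ i) c ρ := by
    intro i
    obtain ⟨c, ρ, hρ, hc, hfl⟩ := D.center i
    exact ⟨c, min ρ 1, lt_min hρ one_pos, min_le_right _ _, hc, hfl.mono (min_le_left _ _)⟩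
  choose c ρ hρ hρ1 hc hfl using hcen
  have hdata := fun i => facet_data hf (D.le i) (hfl i) (hρ i) (hc i)
  choose T ψ hT hsurj hψ hψT using hdata
  have hface : ∀ i x, ‖x‖ = 1 → D.φ i x = 1 → ψ i (f x) = 1 := by
    intro i x hx hφx
    rw [hT i x hx hφx, hψT, hφx]
  -- step 4
  have step4 : ∀ i j r, ‖r‖ = 1 → D.φ i r = 1 → D.φ j r = 1 → ∀ x, ψ i (T j x) = D.φ i x := by
    intro i j r hr hir hjr
    set s : ℝ := ρ i / 13 with hs
    have hs0 : 0 < s := by have := hρ i; positivity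
    have hs1 : s ≤ 1 := by have := hρ1 i; rw [hs]; linarith
    obtain ⟨a, ha⟩ : ∃ a, a = (1 - s) • r + s • c j := ⟨_, rfl⟩
    have hfa : Flat (D.φ j) a (s * ρ j) := by
      rw [ha]; exact Flat.conv (D.le j) (hfl j) (by rw [hr, hjr]) hs0 hs1
    have hsρ : 0 < s * ρ j := mul_pos hs0 (hρ j)
    have hφc : D.φ j (c j) = 1 := by rw [← (hfl j).self (hρ j), hc j]
    have han : ‖a‖ = 1 := by
      rw [hfa.self hsρ, ha, map_add, map_smul, map_smul, hjr, hφc]; simp
    have har : ‖a - r‖ ≤ 2 * s := by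
      have e : a - r = s • (c j - r) := by rw [ha]; module
      rw [e, norm_smul, Real.norm_of_nonneg hs0.le]
      have := norm_sub_le (c j) r
      rw [hc j, hr] at this
      nlinarith
    have hloc : ∀ z, ‖z‖ = 1 → ‖z - a‖ < s * ρ j → ψ i (T j z) = D.φ i z := by
      intro z hz hza
      have hjz : D.φ j z = 1 := by rw [← hfa.near hza, hz]
      rw [← hT j z hz hjz]
      apply eq_of_near hf (D.le i) (hψ i) (hfl i) (hρ1 i) (hc i) (hface i) hz hr hir
      have h1 : ‖z - r‖ ≤ ‖z - a‖ + ‖a - r‖ := by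
        have := norm_add_le (z - a) (a - r)
        rwa [sub_add_sub_cancel] at this
      have h2 : s * ρ j ≤ s := by
        have := hρ1 j
        nlinarith
      have h3 : ρ i = 13 * s := by rw [hs]; ring
      linarith
    intro x
    by_cases hx0 : x = 0
    · rw [hx0]; simp
    have hxpos : 0 < ‖x‖ := norm_pos_iff.mpr hx0
    set t : ℝ := s * ρ j / 4 / ‖x‖ with ht
    have ht0 : 0 < t := by positivity
    have htx : ‖t • x‖ = s * ρ j / 4 := by
      rw [norm_smul, Real.norm_of_nonneg ht0.le, ht, div_mul_cancel₀ _ hxpos.ne']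
    have hsρ1 : s * ρ j ≤ 1 := by
      have := hρ1 j
      nlinarith
    obtain ⟨hpos, hcl⟩ := norm_normalize_sub_le han (w := t • x) (by rw [htx]; linarith)
    have hzn : ‖‖a + t • x‖⁻¹ • (a + t • x)‖ = 1 := by
      rw [norm_smul, norm_inv, norm_norm, inv_mul_cancel₀ hpos.ne']
    have h1 := hloc _ hzn (by rw [htx] at hcl; linarith)
    have h0 := hloc a han (by rw [sub_self, norm_zero]; exact hsρ)
    simp only [map_smul, map_add, smul_eq_mul] at h1
    have h2 : ψ i (T j a) + t * ψ i (T j x) = D.φ i a + t * D.φ i x :=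
      mul_left_cancel₀ (inv_ne_zero hpos.ne') h1
    rw [h0] at h2
    have h3 : t * ψ i (T j x) = t * D.φ i x := by linarith
    exact mul_left_cancel₀ ht0.ne' h3
  -- step 5
  have step5 : ∀ j j' r, ‖r‖ = 1 → D.φ j r = 1 → D.φ j' r = 1 → T j = T j' := by
    intro j j' r hr hjr hjr'
    ext x
    obtain ⟨h, hh⟩ := hsurj j (T j x - T j' x)
    have hkill : ∀ i g, ‖g‖ = 1 → D.φ i g = 1 → D.φ j g = 1 → D.φ j' g = 1 → D.φ i h = 0 := by
      intro i g hg hig hjg hjg'
      rw [← step4 i j g hg hig hjg h, hh, map_sub, step4 i j g hg hig hjg x,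
        step4 i j' g hg hig hjg' x, sub_self]
    have hjh : D.φ j h = 0 := hkill j r hr hjr hjr hjr'
    have hjh' : D.φ j' h = 0 := hkill j' r hr hjr' hjr hjr'
    set S : Set ℝ := {t | ‖r + t • h‖ = 1} with hS
    have hclosed : IsClosed S := isClosed_eq (by fun_prop) continuous_const
    have hopen : IsOpen S := by
      rw [Metric.isOpen_iff]
      intro t ht
      have ht' : ‖r + t • h‖ = 1 := ht
      have h1 : D.φ j (r + t • h) = 1 := by rw [map_add, map_smul, hjr, hjh]; simp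
      have h2 : D.φ j' (r + t • h) = 1 := by rw [map_add, map_smul, hjr', hjh']; simp
      obtain ⟨δ, hδ, hst⟩ := D.stay ht' (fun i hi => hkill i _ ht' hi h1 h2)
      refine ⟨δ / (‖h‖ + 1), by positivity, ?_⟩
      intro s hs
      rw [Real.ball_eq_Ioo] at hs
      have hs' : |s - t| < δ / (‖h‖ + 1) := by
        rw [abs_lt]; constructor <;> linarith [hs.1, hs.2]
      have h3 := hst (s - t) (by
        rw [norm_smul, Real.norm_eq_abs]
        have h4 : |s - t| * (‖h‖ + 1) < δ := by rwa [lt_div_iff₀ (by positivity)] at hs'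
        nlinarith [abs_nonneg (s - t), norm_nonneg h])
      have e : r + t • h + (s - t) • h = r + s • h := by module
      rw [e] at h3
      exact h3
    have huniv : S = univ := IsClopen.eq_univ ⟨hclosed, hopen⟩ ⟨0, by
      change ‖r + (0 : ℝ) • h‖ = 1
      rw [zero_smul, add_zero]; exact hr⟩
    have hh0 : h = 0 := by
      by_contra hne
      have hpos : 0 < ‖h‖ := norm_pos_iff.mpr hne
      have h1 : (3 / ‖h‖ : ℝ) ∈ S := by rw [huniv]; trivial
      have h2 : ‖r + (3 / ‖h‖ : ℝ) • h‖ = 1 := h1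
      have h3 := norm_sub_le (r + (3 / ‖h‖ : ℝ) • h) r
      rw [add_sub_cancel_left, norm_smul, Real.norm_of_nonneg (by positivity),
        div_mul_cancel₀ _ hpos.ne', h2, hr] at h3
      linarith
    rw [hh0, map_zero] at hh
    exact (sub_eq_zero.mp hh.symm)
  -- step 6
  have hconn : IsConnected (sphere (0 : Z) 1) := isConnected_sphere hrank 0 zero_le_one
  obtain ⟨x0, hx0⟩ := hconn.nonempty
  have hx0n : ‖x0‖ = 1 := mem_sphere_zero_iff_norm.mp hx0
  obtain ⟨i0, hi0⟩ := D.exists_active hx0n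
  let P : Z → Prop := fun x => ∃ i, D.φ i x = 1 ∧ T i = T i0
  have hlocal : ∀ x, ‖x‖ = 1 → ∃ δ : ℝ, 0 < δ ∧ ∀ y, ‖y‖ = 1 → ‖y - x‖ < δ → (P y ↔ P x) := by
    intro x hx
    obtain ⟨δ, hδ, hgap⟩ := D.gap x hx
    refine ⟨δ, hδ, ?_⟩
    intro y hy hyx
    have hact : ∀ i, D.φ i y = 1 → D.φ i x = 1 := by
      intro i hi
      rcases hgap i with h | h
      · exact h
      · have := D.le i (y - x)
        rw [map_sub, hi] at this
        linarith
    constructor
    · rintro ⟨i, hi, hTi⟩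
      exact ⟨i, hact i hi, hTi⟩
    · rintro ⟨i, hi, hTi⟩
      obtain ⟨k, hk⟩ := D.exists_active hy
      exact ⟨k, hk, by rw [step5 k i x hx (hact k hk) hi, hTi]⟩
  have : ConnectedSpace (sphere (0 : Z) 1) := isConnected_iff_connectedSpace.mp hconn
  let U : Set (sphere (0 : Z) 1) := {x | P x}
  have hn : ∀ x : sphere (0 : Z) 1, ‖(x : Z)‖ = 1 := fun x => mem_sphere_zero_iff_norm.mp x.2
  have hUo : IsOpen U := by
    rw [Metric.isOpen_iff]
    intro x hx
    obtain ⟨δ, hδ, h⟩ := hlocal x (hn x)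
    refine ⟨δ, hδ, ?_⟩
    intro y hy
    rw [mem_ball, Subtype.dist_eq, dist_eq_norm] at hy
    exact (h y (hn y) hy).mpr hx
  have hUc : IsOpen Uᶜ := by
    rw [Metric.isOpen_iff]
    intro x hx
    obtain ⟨δ, hδ, h⟩ := hlocal x (hn x)
    refine ⟨δ, hδ, ?_⟩
    intro y hy
    rw [mem_ball, Subtype.dist_eq, dist_eq_norm] at hy
    exact fun hPy => hx ((h y (hn y) hy).mp hPy)
  have hUuniv : U = univ :=
    IsClopen.eq_univ ⟨isOpen_compl_iff.mp hUc, hUo⟩ ⟨⟨x0, hx0⟩, ⟨i0, hi0, rfl⟩⟩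
  refine ⟨T i0, ?_⟩
  intro z hz
  have hzU : (⟨z, mem_sphere_zero_iff_norm.mpr hz⟩ : sphere (0 : Z) 1) ∈ U := by
    rw [hUuniv]; trivial
  obtain ⟨i, hi, hTi⟩ := hzU
  rw [← hTi]
  exact (hT i z hz hi).symm

/-- Every normed space of dimension at least two with a polyhedral structure has the Mazur-Ulam
property. -/
theorem poly_mup (D : PolyFamily ι Z) (hrank : 1 < Module.rank ℝ Z) :
    MazurUlamProperty.{v, w} Z := by
  intro Y _ _ f hf hs
  exact equiv_of_raw (fun g hg => poly_raw D hrank hg) f hf hs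

end Vale.Agent.P084
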