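import Vale.Agent.P084.Poly.Basic

namespace Vale.Agent.P084

open Metric Set

set_option linter.unusedSectionVars false

universe v w

variable {Z : Type v} {W : Type w}
  [NormedAddCommGroup Z] [NormedSpace ℝ Z] [NormedAddCommGroup W] [NormedSpace ℝ W]

variable {f : Z → W} (hf : SphIso f) {φ : Z →L[ℝ] ℝ} (hφ : ∀ x, φ x ≤ ‖x‖)
include hf hφ

/-- near a flat point `f` is the restriction of a continuous linear map -/
lemma exists_patch_map {a : Z} {ρ : ℝ} (h : Flat φ a ρ) (hρ : 0 < ρ) (hρ1 : ρ ≤ 1) (ha : ‖a‖ = 1) :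
    ∃ T : Z →L[ℝ] W, ∀ v : Z, φ v = 0 → ‖v‖ ≤ ρ / 8 → f (a + v) = T (a + v) := by
  have hφa : φ a = 1 := by rw [← h.self hρ, ha]
  set κ : ℝ := ρ / 8 with hκ
  have hκ0 : 0 < κ := by positivity
  let K : Submodule ℝ Z := LinearMap.ker φ.toLinearMap
  have hK : ∀ u : K, φ (u : Z) = 0 := fun u => u.2
  let pt : K → Z := fun u => a + κ • (u : Z)
  have hpt : ∀ u : K, pt u = a + κ • (u : Z) := fun u => rfl
  have hsm : ∀ u : K, ‖u‖ ≤ 1 → ‖κ • (u : Z)‖ ≤ κ := by
    intro u hu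
    rw [norm_smul, Real.norm_of_nonneg hκ0.le]
    have : ‖(u : Z)‖ ≤ 1 := hu
    nlinarith
  have hptn : ∀ u : K, ‖u‖ ≤ 1 → ‖pt u‖ = 1 := by
    intro u hu
    rw [hpt, h _ (by linarith [hsm u hu]), map_add, map_smul, hK, hφa]
    simp
  let hh : K → W := fun u => κ⁻¹ • f (pt u)
  have hhdef : ∀ u, hh u = κ⁻¹ • f (pt u) := fun u => rfl
  have hdiff : ∀ u u' : K, pt u - pt u' = κ • ((u - u' : K) : Z) := by
    intro u u'
    rw [hpt, hpt, Submodule.coe_sub]; module
  obtain ⟨A, hA, -⟩ := slice_affine hh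
    (by
      intro u u' hu hu'
      rw [hhdef, hhdef, ← smul_sub, norm_smul, hf.iso _ _ (hptn u hu) (hptn u' hu'), hdiff,
        norm_smul, norm_inv, Real.norm_of_nonneg hκ0.le, ← mul_assoc, inv_mul_cancel₀ hκ0.ne',
        one_mul]
      rfl)
    (by
      intro u u' hu hu'
      have hfl : Flat φ (pt u) (ρ - κ) := by
        apply (h.shift (pt u)).mono
        have : pt u - a = κ • (u : Z) := by rw [hpt]; abel
        rw [this]
        linarith [hsm u hu.le]
      have hd : ‖pt u - pt u'‖ ≤ 2 * κ := by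
        have e : pt u - pt u' = κ • (u : Z) - κ • (u' : Z) := by rw [hpt, hpt]; abel
        rw [e]
        have := norm_sub_le (κ • (u : Z)) (κ • (u' : Z))
        linarith [hsm u hu.le, hsm u' hu'.le]
      have hm := patch_mid hf hφ hfl (by linarith) (hptn u hu.le) (hptn u' hu'.le)
        (by linarith) (by linarith)
      have e : pt ((1 / 2 : ℝ) • (u + u')) = (1 / 2 : ℝ) • (pt u + pt u') := by
        rw [hpt, hpt, hpt, Submodule.coe_smul, Submodule.coe_add]; module
      rw [hhdef, hhdef, hhdef, e, hm]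
      module)
  let Q : Z →L[ℝ] Z := ContinuousLinearMap.id ℝ Z - φ.smulRight a
  have hQ : ∀ x, Q x = x - φ x • a := fun x => rfl
  have hQk : ∀ x, Q x ∈ K := by
    intro x
    change φ (Q x) = 0
    rw [hQ, map_sub, map_smul, hφa, smul_eq_mul, mul_one, sub_self]
  let P : Z →L[ℝ] K := Q.codRestrict K hQk
  have hP : ∀ x, ((P x : K) : Z) = x - φ x • a := fun x => rfl
  refine ⟨φ.smulRight (f a) + A.comp P, ?_⟩
  intro v hv hvn
  have hT : (φ.smulRight (f a) + A.comp P) (a + v) = φ (a + v) • f a + A (P (a + v)) := rfl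
  rw [hT, map_add φ, hφa, hv, add_zero, one_smul]
  let vk : K := ⟨v, hv⟩
  have hPv : P (a + v) = vk := by
    apply Subtype.ext
    rw [hP, map_add, hφa, hv, add_zero, one_smul]
    change a + v - a = v
    abel
  rw [hPv]
  have hu : ‖κ⁻¹ • vk‖ ≤ 1 := by
    rw [norm_smul, norm_inv, Real.norm_of_nonneg hκ0.le, inv_mul_le_iff₀ hκ0, mul_one]
    exact hvn
  have h1 := hA _ hu
  have h0 : pt 0 = a := by rw [hpt]; simp
  have h2 : pt (κ⁻¹ • vk) = a + v := by
    rw [hpt, Submodule.coe_smul, smul_smul, mul_inv_cancel₀ hκ0.ne', one_smul]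
  rw [hhdef, hhdef, h0, h2, map_smul] at h1
  have h3 := congrArg (fun y => κ • y) h1
  simp only [smul_add, smul_smul, mul_inv_cancel₀ hκ0.ne', one_smul] at h3
  exact h3

/-- the linear map and the functional attached to a face with nonempty interior -/
lemma facet_data {a : Z} {ρ : ℝ} (h : Flat φ a ρ) (hρ : 0 < ρ) (ha : ‖a‖ = 1) :
    ∃ (T : Z →L[ℝ] W) (ψ : W →L[ℝ] ℝ), (∀ x, ‖x‖ = 1 → φ x = 1 → f x = T x) ∧
      Function.Surjective T ∧ (∀ y, ψ y ≤ ‖y‖) ∧ ∀ x, ψ (T x) = φ x := by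
  obtain ⟨ρ0, hρ0, hρ01, hρ0ρ⟩ : ∃ ρ0 : ℝ, 0 < ρ0 ∧ ρ0 ≤ 1 ∧ ρ0 ≤ ρ :=
    ⟨min ρ 1, lt_min hρ one_pos, min_le_right _ _, min_le_left _ _⟩
  have h0 : Flat φ a ρ0 := h.mono hρ0ρ
  have hφa : φ a = 1 := by rw [← h.self hρ, ha]
  obtain ⟨T, hT⟩ := exists_patch_map hf hφ h0 hρ0 hρ01 ha
  have hTa : f a = T a := by
    have := hT 0 (map_zero _) (by rw [norm_zero]; positivity)
    rwa [add_zero] at this
  -- flat points
  have hflat : ∀ (b : Z) (ρb : ℝ), 0 < ρb → ‖b‖ = 1 → Flat φ b ρb → f b = T b := by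
    intro b ρb hρb hb hfb
    obtain ⟨ρ', hρ', h1', h2'⟩ : ∃ ρ' : ℝ, 0 < ρ' ∧ ρ' ≤ ρ0 ∧ ρ' ≤ ρb :=
      ⟨min ρ0 ρb, lt_min hρ0 hρb, min_le_left _ _, min_le_right _ _⟩
    have hφb : φ b = 1 := by rw [← hfb.self hρb, hb]
    have fa' : Flat φ a ρ' := h0.mono h1'
    have fb' : Flat φ b ρ' := hfb.mono h2'
    let q : ℕ → Z := fun n => a + ((1 / 2 : ℝ) ^ n) • (b - a)
    have hq : ∀ n, q n = a + ((1 / 2 : ℝ) ^ n) • (b - a) := fun n => rfl
    have hpow : ∀ n : ℕ, (0 : ℝ) ≤ (1 / 2 : ℝ) ^ n ∧ (1 / 2 : ℝ) ^ n ≤ 1 := fun n =>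
      ⟨by positivity, pow_le_one₀ (by norm_num) (by norm_num)⟩
    have hqf : ∀ n, Flat φ (q n) ρ' := by
      intro n
      have e : q n = (1 - (1 / 2 : ℝ) ^ n) • a + ((1 / 2 : ℝ) ^ n) • b := by rw [hq]; module
      rw [e]
      exact Flat.conv2 hφ fa' fb' (hpow n).1 (hpow n).2
    have hqn : ∀ n, ‖q n‖ = 1 := by
      intro n
      rw [(hqf n).self hρ', hq, map_add, map_smul, map_sub, hφa, hφb]; simp
    have hstep : ∀ n, f (q n) - T (q n) = ((1 / 2 : ℝ) ^ n) • (f b - T b) := by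
      intro n
      induction n with
      | zero =>
        have : q 0 = b := by rw [hq]; simp
        rw [this]; simp
      | succ n ih =>
        have e : q (n + 1) = (1 / 2 : ℝ) • (a + q n) := by
          rw [hq, hq, pow_succ]; module
        have hm := flat_mid hf hφ hρ' ha (hqn n) fa' (hqf n)
        rw [e, hm, map_smul, map_add, ← hTa, pow_succ]
        have : (1 / 2 : ℝ) • (f a + f (q n)) - (1 / 2 : ℝ) • (f a + T (q n))
            = (1 / 2 : ℝ) • (f (q n) - T (q n)) := by module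
        rw [this, ih, smul_smul]
        congr 1; ring
    obtain ⟨n, hn⟩ := exists_pow_lt_of_lt_one (show (0 : ℝ) < ρ0 / 8 / 3 by positivity)
      (show (1 / 2 : ℝ) < 1 by norm_num)
    have hba : ‖b - a‖ ≤ 2 := by
      have := norm_sub_le b a
      linarith
    have hz := hT (((1 / 2 : ℝ) ^ n) • (b - a))
      (by rw [map_smul, map_sub, hφa, hφb]; simp)
      (by
        rw [norm_smul, Real.norm_of_nonneg (hpow n).1]
        nlinarith [(hpow n).1])
    rw [← hq] at hz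
    have h3 := hstep n
    rw [hz, sub_self] at h3
    have h4 : f b - T b = 0 := by
      rcases smul_eq_zero.mp h3.symm with h5 | h5
      · exact absurd h5 (by positivity)
      · exact h5
    exact sub_eq_zero.mp h4
  have hface : ∀ x, ‖x‖ = 1 → φ x = 1 → f x = T x := by
    intro x hx hφx
    have key : ∀ s : ℝ, 0 < s → s ≤ 1 → ‖f x - T x‖ ≤ s * (2 * (1 + ‖T‖)) := by
      intro s hs0 hs1
      have hfl := Flat.conv hφ h0 (r := x) (by rw [hx, hφx]) hs0 hs1
      have hpn : ‖(1 - s) • x + s • a‖ = 1 := by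
        rw [hfl.self (by positivity), map_add, map_smul, map_smul, hφx, hφa]; simp
      have hp := hflat _ _ (by positivity) hpn hfl
      have e : f x - T x = (f x - f ((1 - s) • x + s • a)) + T (((1 - s) • x + s • a) - x) := by
        rw [hp, map_sub]; abel
      have hd : ‖x - ((1 - s) • x + s • a)‖ ≤ s * 2 := by
        have : x - ((1 - s) • x + s • a) = s • (x - a) := by module
        rw [this, norm_smul, Real.norm_of_nonneg hs0.le]
        have := norm_sub_le x a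
        nlinarith
      have h1 := norm_add_le (f x - f ((1 - s) • x + s • a)) (T (((1 - s) • x + s • a) - x))
      rw [← e, hf.iso _ _ hx hpn] at h1
      have h2 := T.le_opNorm (((1 - s) • x + s • a) - x)
      rw [norm_sub_rev _ x] at h2
      have h3 : ‖T‖ * ‖x - ((1 - s) • x + s • a)‖ ≤ ‖T‖ * (s * 2) :=
        mul_le_mul_of_nonneg_left hd (norm_nonneg _)
      nlinarith
    have hz : ‖f x - T x‖ ≤ 0 := by
      apply le_of_forall_pos_le_add
      intro ε hε
      have hc : 0 < 2 * (1 + ‖T‖) := by positivity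
      set s : ℝ := min 1 (ε / (2 * (1 + ‖T‖))) with hs
      have hs0 : 0 < s := lt_min one_pos (by positivity)
      have h1 := key s hs0 (min_le_left _ _)
      have h2 : s * (2 * (1 + ‖T‖)) ≤ ε := by
        have : s ≤ ε / (2 * (1 + ‖T‖)) := min_le_right _ _
        rwa [le_div_iff₀ hc] at this
      linarith
    exact sub_eq_zero.mp (norm_eq_zero.mp (le_antisymm hz (norm_nonneg _)))
  have hfa1 : ‖f a‖ = 1 := hf.norm _ ha
  -- surjectivity
  have hnear : ∀ y : W, ‖y - f a‖ < ρ0 / 2 → ∃ x, T x = y := by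
    intro y hy
    have hn1 : |‖y‖ - 1| ≤ ‖y - f a‖ := by
      rw [← hfa1]; exact abs_norm_sub_norm_le _ _
    have hn2 := abs_le.mp hn1
    have hypos : 0 < ‖y‖ := by linarith
    have hyn : ‖‖y‖⁻¹ • y‖ = 1 := by
      rw [norm_smul, norm_inv, norm_norm, inv_mul_cancel₀ hypos.ne']
    obtain ⟨x, hx, hxy⟩ := hf.surj _ hyn
    have hd : ‖x - a‖ < ρ0 := by
      rw [← hf.iso _ _ hx ha, hxy]
      have e : ‖y‖⁻¹ • y - f a = (‖y‖⁻¹ - 1) • y + (y - f a) := by module
      have h1 := norm_add_le ((‖y‖⁻¹ - 1) • y) (y - f a)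
      rw [← e, norm_smul, Real.norm_eq_abs] at h1
      have h2 : |‖y‖⁻¹ - 1| * ‖y‖ = |‖y‖ - 1| := by
        rw [← abs_of_pos hypos, ← abs_mul, abs_of_pos hypos, sub_mul, inv_mul_cancel₀ hypos.ne',
          one_mul, abs_sub_comm]
      rw [h2] at h1
      linarith
    have hφx : φ x = 1 := by rw [← h0.near hd, hx]
    refine ⟨‖y‖ • x, ?_⟩
    rw [map_smul, ← hface x hx hφx, hxy, smul_smul, mul_inv_cancel₀ hypos.ne', one_smul]
  have hsurj : Function.Surjective T := by
    intro w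
    by_cases hw : w = 0
    · exact ⟨0, by rw [hw, map_zero]⟩
    have hwpos : 0 < ‖w‖ := norm_pos_iff.mpr hw
    set t : ℝ := ρ0 / 4 / ‖w‖ with ht
    have ht0 : 0 < t := by positivity
    obtain ⟨x, hx⟩ := hnear (f a + t • w) (by
      rw [add_sub_cancel_left, norm_smul, Real.norm_of_nonneg ht0.le, ht,
        div_mul_cancel₀ _ hwpos.ne']
      linarith)
    refine ⟨t⁻¹ • (x - a), ?_⟩
    rw [map_smul, map_sub, hx, ← hTa, add_sub_cancel_left, smul_smul, inv_mul_cancel₀ ht0.ne',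
      one_smul]
  -- the functional
  obtain ⟨ψ, hψn, hψa⟩ := exists_dual_vector ℝ (f a) (by rw [hfa1]; exact one_ne_zero)
  have hψa' : ψ (f a) = 1 := by rw [hψa, hfa1]; rfl
  have hψle : ∀ y, ψ y ≤ ‖y‖ := by
    intro y
    have := ψ.le_opNorm y
    rw [hψn, one_mul] at this
    exact le_trans (le_abs_self _) this
  have hker : ∀ v, φ v = 0 → ψ (T v) = 0 := by
    intro v hv
    by_cases hv0 : v = 0
    · rw [hv0, map_zero, map_zero]
    have hvpos : 0 < ‖v‖ := norm_pos_iff.mpr hv0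
    set t : ℝ := ρ0 / 8 / ‖v‖ with ht
    have ht0 : 0 < t := by positivity
    have hsmall : ∀ s : ℝ, |s| = t → ψ (T (s • v)) ≤ 0 := by
      intro s hs
      have hn : ‖s • v‖ ≤ ρ0 / 8 := by
        rw [norm_smul, Real.norm_eq_abs, hs, ht, div_mul_cancel₀ _ hvpos.ne']
      have h1 := hT (s • v) (by rw [map_smul, hv, smul_zero]) hn
      have h2 : ‖a + s • v‖ = 1 := by
        rw [h0 _ (by linarith), map_add, map_smul, hv, hφa]; simp
      have h3 := hψle (f (a + s • v))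
      rw [hf.norm _ h2, h1, map_add, map_add, ← hTa, hψa'] at h3
      linarith
    have h1 := hsmall t (abs_of_pos ht0)
    have h2 := hsmall (-t) (by rw [abs_neg, abs_of_pos ht0])
    rw [map_smul, map_smul, smul_eq_mul] at h1 h2
    have h3 : t * ψ (T v) = 0 := by nlinarith
    rcases mul_eq_zero.mp h3 with h4 | h4
    · exact absurd h4 ht0.ne'
    · exact h4
  refine ⟨T, ψ, hface, hsurj, hψle, ?_⟩
  intro x
  have e : x = φ x • a + (x - φ x • a) := by abel
  have hk := hker (x - φ x • a) (by rw [map_sub, map_smul, hφa]; simp)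
  conv_lhs => rw [e]
  rw [map_add, map_add, hk, map_smul, map_smul, ← hTa, hψa']
  simp

end Vale.Agent.P084
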